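import Vale.Agent.P064.Growth

/-!
# P034: definitions for the proof of Talagrand's conjecture `q_f ≤ K q`
-/

namespace Vale.Agent.Tal

open Finset Real Vale.Agent.P064

section Abs

variable {X : Type} [Fintype X] [DecidableEq X]

/-- deficit (plus one) of a law `p` with respect to the excess function `ex` -/
noncomputable def De (ex : Finset X → ℝ) (p : Finset X → ℝ) : ℝ :=
  ∑ z, p z * ex z - Hf p + 1

/-- `p` is a probability supported on `S` -/
def Law (S : Finset X → Prop) (p : Finset X → ℝ) : Prop :=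
  (∀ z, 0 ≤ p z) ∧ ∑ z, p z = 1 ∧ ∀ z, p z ≠ 0 → S z

/-- `P` is a probability on pairs supported on `S × S` -/
def Law2 (S : Finset X → Prop) (P : Finset X × Finset X → ℝ) : Prop :=
  (∀ x, 0 ≤ P x) ∧ ∑ x, P x = 1 ∧ ∀ x, P x ≠ 0 → S x.1 ∧ S x.2

/-- the pair bound -/
def PairE (S : Finset X → Prop) (ex : Finset X → ℝ) (B Φ : ℝ) : Prop :=
  ∀ P : Finset X × Finset X → ℝ, Law2 S P →
    ∑ x, P x * ((iP x).card : ℝ) ≤ Φ + mi P
      + B * (De ex (mass P Prod.fst) + De ex (mass P Prod.snd))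

/-- the union bound (for symmetric pairs) -/
def UnionE (S : Finset X → Prop) (ex : Finset X → ℝ) (B Φ c κ : ℝ) : Prop :=
  ∀ Q : Finset X × Finset X → ℝ, Law2 S Q → (∀ a b, Q (a, b) = Q (b, a)) →
    De ex (mass Q uP) ≤ 2 * De ex (mass Q Prod.fst) + mi Q
      + c * (∑ x, Q x * ((iP x).card : ℝ))
      + (Φ + 2 * B * De ex (mass Q Prod.fst)) + κ

end Abs

section Clo

variable {X : Type} [Fintype X] [DecidableEq X]

/-- weight of `J` in the kernel -/
noncomputable def wt (m : Finset X → ℝ) (lam τ : ℝ) (J : Finset X) : ℝ :=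
  exp (lam * log (m J) + τ * (J.card : ℝ))

/-- partition function of the kernel -/
noncomputable def Zp (m : Finset X → ℝ) (lam τ : ℝ) (C : Finset X) : ℝ :=
  ∑ J ∈ C.powerset, wt m lam τ J

/-- the kernel: a random subset `J` of `C` -/
noncomputable def kerT (m : Finset X → ℝ) (lam τ : ℝ) (C J : Finset X) : ℝ :=
  if J ⊆ C then wt m lam τ J / Zp m lam τ C else 0

/-- law of `J` when `C` has law `m` -/
noncomputable def Rm (m : Finset X → ℝ) (lam τ : ℝ) (J : Finset X) : ℝ :=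
  ∑ C, m C * kerT m lam τ C J

/-- the weight of a pair `(C, C')` glued along `J = C ∩ C'` -/
noncomputable def M2 (m : Finset X → ℝ) (lam τ : ℝ) (x : Finset X × Finset X) : ℝ :=
  (m x.1 * kerT m lam τ x.1 (iP x)) * (m x.2 * kerT m lam τ x.2 (iP x)) / Rm m lam τ (iP x)

/-- `m` is closed under the intersection kernel and under gluing -/
def ClosedK (m : Finset X → ℝ) (lam τ : ℝ) : Prop :=
  (∀ J, Rm m lam τ J ≤ 12 * m J) ∧ ∀ U, mass (M2 m lam τ) uP U ≤ 12 * m U

/-- the excess -/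
noncomputable def exf (m : Finset X → ℝ) (l : ℝ) (z : Finset X) : ℝ :=
  -log (m z) - l * (z.card : ℝ)

/-- subsets of `H` of size at least `s` -/
def SS (H : Finset X) (s : ℝ) (z : Finset X) : Prop := z ⊆ H ∧ s ≤ (z.card : ℝ)

open Classical in
/-- weight sum over the subsets of `H` of size at least `s` -/
noncomputable def fs (m : Finset X → ℝ) (s l : ℝ) (H : Finset X) : ℝ :=
  ∑ z ∈ H.powerset.filter (fun z => s ≤ (z.card : ℝ)), m z * exp (l * (z.card : ℝ))

/-- the standing hypotheses on a set `H` at scale `s` -/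
structure Good (m : Finset X → ℝ) (l1 l s : ℝ) (H : Finset X) : Prop where
  pos : ∀ z, 0 < m z
  sum : ∑ z, m z = 1
  cl1 : ClosedK m (1 / 2) (l1 / 2)
  cl2 : ClosedK m (9 / 20) (9 / 20 * l1 - 8)
  inc : ∀ z, z ⊆ H → z.Nonempty → m z ≤ exp (-((l1 + 8060) * (z.card : ℝ)))
  all : fs m 1 l1 H ≤ 9 / 4
  hs : 1 ≤ s
  hl : l1 ≤ l
  hl' : l ≤ l1 + 60
  up : fs m s l H ≤ 9 / 4
  lo : 1 ≤ fs m s l H

end Clo

/-- softmax -/
noncomputable def softmax {ι : Type} [Fintype ι] (x : ι → ℝ) (i : ι) : ℝ :=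
  exp (x i) / ∑ j, exp (x j)

end Vale.Agent.Tal
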