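import Mathlib

/-!
# P034 Part A1: there is no `C¹` retraction of the ball to the sphere (Milnor-Rogers)
-/

namespace Vale.Agent.Tal

open MeasureTheory Metric Set Topology

namespace Retr

variable {ι : Type} [Fintype ι]

lemma exists_sphere (x y : EuclideanSpace ℝ ι) (hx : ‖x‖ ≤ 1) (hy : 1 ≤ ‖y‖) :
    ∃ z : EuclideanSpace ℝ ι, ‖z‖ = 1 ∧ ‖x - z‖ ≤ ‖x - y‖ := by
  have hc : ContinuousOn (fun s : ℝ => ‖x + s • (y - x)‖) (Icc 0 1) := by fun_prop
  have h := intermediate_value_Icc (by norm_num : (0 : ℝ) ≤ 1) hc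
  obtain ⟨s, hs, hs1⟩ := h (show (1 : ℝ) ∈ Icc _ _ by
    constructor
    · simpa using hx
    · simpa using hy)
  refine ⟨x + s • (y - x), hs1, ?_⟩
  have : x - (x + s • (y - x)) = s • (x - y) := by
    rw [smul_sub, smul_sub]; abel
  rw [this, norm_smul, Real.norm_eq_abs, abs_of_nonneg hs.1]
  have := mul_le_mul_of_nonneg_right hs.2 (norm_nonneg (x - y))
  linarith

/-- extension by zero -/
noncomputable def ext0 (g : EuclideanSpace ℝ ι → EuclideanSpace ℝ ι) (x : EuclideanSpace ℝ ι) :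
    EuclideanSpace ℝ ι := open Classical in if ‖x‖ ≤ 1 then g x else 0

lemma ext0_in (g : EuclideanSpace ℝ ι → EuclideanSpace ℝ ι) {x : EuclideanSpace ℝ ι}
    (hx : ‖x‖ ≤ 1) : ext0 g x = g x := if_pos hx

lemma ext0_out (g : EuclideanSpace ℝ ι → EuclideanSpace ℝ ι) {x : EuclideanSpace ℝ ι}
    (hx : ¬ ‖x‖ ≤ 1) : ext0 g x = 0 := if_neg hx

lemma ext0_lip (g : EuclideanSpace ℝ ι → EuclideanSpace ℝ ι) (K : ℝ) (hK : 0 ≤ K)
    (hlip : ∀ x y, ‖x‖ ≤ 1 → ‖y‖ ≤ 1 → ‖g x - g y‖ ≤ K * ‖x - y‖)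
    (h0 : ∀ x, ‖x‖ = 1 → g x = 0) (x y : EuclideanSpace ℝ ι) :
    ‖ext0 g x - ext0 g y‖ ≤ K * ‖x - y‖ := by
  by_cases hx : ‖x‖ ≤ 1 <;> by_cases hy : ‖y‖ ≤ 1
  · rw [ext0_in g hx, ext0_in g hy]; exact hlip x y hx hy
  · rw [ext0_in g hx, ext0_out g hy, sub_zero]
    obtain ⟨z, hz, hz2⟩ := exists_sphere x y hx (by linarith)
    have := hlip x z hx hz.le
    rw [h0 z hz, sub_zero] at this
    exact this.trans (mul_le_mul_of_nonneg_left hz2 hK)
  · rw [ext0_out g hx, ext0_in g hy, zero_sub, norm_neg]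
    obtain ⟨z, hz, hz2⟩ := exists_sphere y x hy (by linarith)
    have := hlip y z hy hz.le
    rw [h0 z hz, sub_zero] at this
    rw [norm_sub_rev x y]
    exact this.trans (mul_le_mul_of_nonneg_left hz2 hK)
  · rw [ext0_out g hx, ext0_out g hy, sub_zero, norm_zero]
    positivity

lemma surj (g : EuclideanSpace ℝ ι → EuclideanSpace ℝ ι) (K : ℝ) (hK : 0 ≤ K)
    (hlip : ∀ x y, ‖x‖ ≤ 1 → ‖y‖ ≤ 1 → ‖g x - g y‖ ≤ K * ‖x - y‖)
    (h0 : ∀ x, ‖x‖ = 1 → g x = 0) (t : ℝ) (ht : 0 ≤ t) (htK : t * K < 1)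
    (y : EuclideanSpace ℝ ι) (hy : ‖y‖ < 1) : ∃ x, ‖x‖ < 1 ∧ x + t • g x = y := by
  set φ : EuclideanSpace ℝ ι → EuclideanSpace ℝ ι := fun x => y - t • ext0 g x with hφ
  have hcoe : ((t * K).toNNReal : ℝ) = t * K := Real.coe_toNNReal _ (by positivity)
  have hl : LipschitzWith (t * K).toNNReal φ := by
    apply LipschitzWith.of_dist_le_mul
    intro a b
    rw [dist_eq_norm, dist_eq_norm, hcoe]
    have : φ a - φ b = t • (ext0 g b - ext0 g a) := by
      rw [hφ]; simp only [smul_sub]; abel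
    rw [this, norm_smul, Real.norm_eq_abs, abs_of_nonneg ht]
    have h1 := ext0_lip g K hK hlip h0 b a
    rw [norm_sub_rev b a] at h1
    calc t * ‖ext0 g b - ext0 g a‖ ≤ t * (K * ‖a - b‖) := mul_le_mul_of_nonneg_left h1 ht
      _ = _ := by rw [mul_assoc]
  have hc : ContractingWith (t * K).toNNReal φ := ⟨by
    rw [← NNReal.coe_lt_coe, hcoe]; exact htK, hl⟩
  obtain ⟨x, hx⟩ : ∃ x, φ x = x := ⟨hc.fixedPoint, hc.fixedPoint_isFixedPt⟩
  have hx2 : x + t • ext0 g x = y := by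
    have : y - t • ext0 g x = x := hx
    rw [sub_eq_iff_eq_add] at this
    exact this.symm
  have hxn : ‖x‖ < 1 := by
    by_contra hcon
    push Not at hcon
    have h1 : ext0 g x = 0 := by
      by_cases h : ‖x‖ ≤ 1
      · rw [ext0_in g h]; exact h0 x (le_antisymm h hcon)
      · exact ext0_out g h
    rw [h1, smul_zero, add_zero] at hx2
    rw [hx2] at hcon
    linarith
  refine ⟨x, hxn, ?_⟩
  rw [ext0_in g hxn.le] at hx2
  exact hx2

lemma inj (g : EuclideanSpace ℝ ι → EuclideanSpace ℝ ι) (K : ℝ)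
    (hlip : ∀ x y, ‖x‖ ≤ 1 → ‖y‖ ≤ 1 → ‖g x - g y‖ ≤ K * ‖x - y‖) (t : ℝ) (ht : 0 ≤ t)
    (htK : t * K < 1) : InjOn (fun x => x + t • g x) (ball (0 : EuclideanSpace ℝ ι) 1) := by
  intro x hx y hy hxy
  rw [mem_ball_zero_iff] at hx hy
  have h1 : x - y = t • (g y - g x) := by
    simp only at hxy
    rw [smul_sub, sub_eq_sub_iff_add_eq_add, hxy, add_comm]
  have h2 : ‖x - y‖ ≤ (t * K) * ‖x - y‖ := by
    conv_lhs => rw [h1]
    rw [norm_smul, Real.norm_eq_abs, abs_of_nonneg ht, norm_sub_rev (g y)]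
    have := mul_le_mul_of_nonneg_left (hlip x y hx.le hy.le) ht
    linarith
  have h3 : ‖x - y‖ = 0 := by
    have := norm_nonneg (x - y)
    nlinarith
  exact sub_eq_zero.1 (norm_eq_zero.1 h3)

lemma image_eq (r : EuclideanSpace ℝ ι → EuclideanSpace ℝ ι) (K : ℝ) (hK : 0 ≤ K)
    (hlip : ∀ x y, ‖x‖ ≤ 1 → ‖y‖ ≤ 1 → ‖(r x - x) - (r y - y)‖ ≤ K * ‖x - y‖)
    (h1 : ∀ x ∈ closedBall (0 : EuclideanSpace ℝ ι) 1, ‖r x‖ = 1)
    (h2 : ∀ x, ‖x‖ = 1 → r x = x) (t : ℝ) (ht : 0 ≤ t) (ht1 : t < 1) (htK : t * K < 1) :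
    (fun x => x + t • (r x - x)) '' (ball (0 : EuclideanSpace ℝ ι) 1) = ball 0 1 := by
  ext y
  constructor
  · rintro ⟨x, hx, rfl⟩
    rw [mem_ball_zero_iff] at hx ⊢
    have h3 : x + t • (r x - x) = (1 - t) • x + t • r x := by
      rw [smul_sub, sub_smul, one_smul]; abel
    simp only
    rw [h3]
    calc ‖(1 - t) • x + t • r x‖ ≤ ‖(1 - t) • x‖ + ‖t • r x‖ := norm_add_le _ _
      _ = (1 - t) * ‖x‖ + t * 1 := by
          rw [norm_smul, norm_smul, Real.norm_eq_abs, Real.norm_eq_abs, abs_of_nonneg ht,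
            abs_of_pos (by linarith : 0 < 1 - t), h1 x (by rw [mem_closedBall_zero_iff]; exact hx.le)]
      _ < 1 := by nlinarith
  · intro hy
    rw [mem_ball_zero_iff] at hy
    obtain ⟨x, hx, hxy⟩ := surj (fun x => r x - x) K hK hlip
      (fun x hx => by rw [h2 x hx, sub_self]) t ht htK y hy
    exact ⟨x, by rw [mem_ball_zero_iff]; exact hx, hxy⟩

/-- positivity of the determinant for small `t` -/
lemma det_pos (K : ℝ) (hK : 0 ≤ K) : ∃ ε : ℝ, 0 < ε ∧
    ∀ A : EuclideanSpace ℝ ι →L[ℝ] EuclideanSpace ℝ ι, ‖A‖ ≤ K → ∀ t : ℝ, 0 ≤ t → t < ε →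
      0 < (1 + t • A : EuclideanSpace ℝ ι →L[ℝ] EuclideanSpace ℝ ι).det := by
  have hc := (ContinuousLinearMap.continuous_det (𝕜 := ℝ) (E := EuclideanSpace ℝ ι)).continuousAt
    (x := (1 : EuclideanSpace ℝ ι →L[ℝ] EuclideanSpace ℝ ι))
  have h1 : (1 : EuclideanSpace ℝ ι →L[ℝ] EuclideanSpace ℝ ι).det = 1 := by
    simp [ContinuousLinearMap.det]
  have hev := hc.eventually_const_lt (u := 0) (by
    show 0 < (1 : EuclideanSpace ℝ ι →L[ℝ] EuclideanSpace ℝ ι).det
    rw [h1]; norm_num)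
  rw [Metric.eventually_nhds_iff] at hev
  obtain ⟨ε, hε, hball⟩ := hev
  refine ⟨ε / (K + 1), by positivity, ?_⟩
  intro A hA t ht htε
  apply hball
  rw [dist_eq_norm, add_sub_cancel_left, norm_smul, Real.norm_eq_abs, abs_of_nonneg ht]
  rw [lt_div_iff₀ (by positivity)] at htε
  nlinarith [norm_nonneg A]

/-- the determinant is a polynomial in `t` -/
lemma det_poly (A : EuclideanSpace ℝ ι →L[ℝ] EuclideanSpace ℝ ι) :
    ∃ P : Polynomial ℝ, P.natDegree ≤ Fintype.card ι ∧
      ∀ t : ℝ, (1 + t • A : EuclideanSpace ℝ ι →L[ℝ] EuclideanSpace ℝ ι).det = P.eval t := by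
  classical
  set b := (EuclideanSpace.basisFun ι ℝ).toBasis with hb
  set M := LinearMap.toMatrix b b (A : EuclideanSpace ℝ ι →ₗ[ℝ] EuclideanSpace ℝ ι) with hM
  refine ⟨((Polynomial.X : Polynomial ℝ) • M.map Polynomial.C +
    (1 : Matrix ι ι ℝ).map Polynomial.C).det, Polynomial.natDegree_det_X_add_C_le M 1, ?_⟩
  intro t
  have e1 : (1 + t • A : EuclideanSpace ℝ ι →L[ℝ] EuclideanSpace ℝ ι).det =
      (1 + t • M).det := by
    rw [ContinuousLinearMap.det, ← LinearMap.det_toMatrix b]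
    congr 1
    rw [hM]
    simp [map_add, LinearMap.toMatrix_one]
  rw [e1]
  have e2 : Polynomial.eval t (((Polynomial.X : Polynomial ℝ) • M.map Polynomial.C +
      (1 : Matrix ι ι ℝ).map Polynomial.C).det) =
      ((Polynomial.evalRingHom t).mapMatrix ((Polynomial.X : Polynomial ℝ) • M.map Polynomial.C +
      (1 : Matrix ι ι ℝ).map Polynomial.C)).det := by
    rw [← RingHom.map_det]; rfl
  rw [e2]
  congr 1
  ext i j
  simp only [RingHom.mapMatrix_apply, Matrix.map_apply, Matrix.add_apply, Matrix.smul_apply,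
    smul_eq_mul, map_add, Polynomial.coe_evalRingHom, Polynomial.eval_mul, Polynomial.eval_X,
    Polynomial.eval_C]
  ring

/-- interpolation weights -/
lemma exists_weights (n : ℕ) (t0 : ℝ) (ht0 : 0 < t0) : ∃ (v w : ℕ → ℝ),
    (∀ i ∈ Finset.range (n + 1), 0 ≤ v i ∧ v i < t0) ∧
    ∀ P : Polynomial ℝ, P.natDegree ≤ n →
      P.eval 1 = ∑ i ∈ Finset.range (n + 1), w i * P.eval (v i) := by
  classical
  set v : ℕ → ℝ := fun i => t0 * (i : ℝ) / ((n : ℝ) + 1) with hv
  have hinj : Set.InjOn v (Finset.range (n + 1) : Finset ℕ) := by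
    intro i _ j _ hij
    simp only [hv] at hij
    have h1 : (0 : ℝ) < (n : ℝ) + 1 := by positivity
    rw [div_left_inj' h1.ne'] at hij
    have := mul_left_cancel₀ ht0.ne' hij
    exact_mod_cast this
  refine ⟨v, fun i => (Lagrange.basis (Finset.range (n + 1)) v i).eval 1, ?_, ?_⟩
  · intro i hi
    rw [Finset.mem_range] at hi
    have h1 : (0 : ℝ) < (n : ℝ) + 1 := by positivity
    refine ⟨by simp only [hv]; positivity, ?_⟩
    simp only [hv]
    rw [div_lt_iff₀ h1]
    apply mul_lt_mul_of_pos_left _ ht0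
    exact_mod_cast hi
  · intro P hP
    have hdeg : P.degree < ((Finset.range (n + 1)).card : WithBot ℕ) := by
      rw [Finset.card_range]
      exact lt_of_le_of_lt Polynomial.degree_le_natDegree (by exact_mod_cast Nat.lt_succ_of_le hP)
    have h2 := Lagrange.eq_interpolate hinj hdeg
    conv_lhs => rw [h2]
    rw [Lagrange.interpolate_apply, Polynomial.eval_finsetSum]
    refine Finset.sum_congr rfl fun i _ => ?_
    rw [Polynomial.eval_mul, Polynomial.eval_C]
    ring

end Retr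

open Retr in
theorem no_retraction {ι : Type} [Fintype ι]
    (r : EuclideanSpace ℝ ι → EuclideanSpace ℝ ι)
    (hr : ∀ x ∈ Metric.closedBall (0 : EuclideanSpace ℝ ι) 1, ContDiffAt ℝ 1 r x)
    (h1 : ∀ x ∈ Metric.closedBall (0 : EuclideanSpace ℝ ι) 1, ‖r x‖ = 1)
    (h2 : ∀ x, ‖x‖ = 1 → r x = x) : False := by
  classical
  set B : Set (EuclideanSpace ℝ ι) := ball 0 1 with hB
  set g : EuclideanSpace ℝ ι → EuclideanSpace ℝ ι := fun x => r x - x with hg
  have hgc : ContDiffOn ℝ 1 g (closedBall 0 1) := fun x hx =>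
    ((hr x hx).sub contDiffAt_id).contDiffWithinAt
  obtain ⟨K, hKlip⟩ := hgc.exists_lipschitzOnWith (by norm_num) (convex_closedBall 0 1)
    (isCompact_closedBall 0 1)
  have hK : (0 : ℝ) ≤ K := K.2
  have hlip : ∀ x y, ‖x‖ ≤ 1 → ‖y‖ ≤ 1 → ‖g x - g y‖ ≤ K * ‖x - y‖ := by
    intro x y hx hy
    have := hKlip.dist_le_mul x (by rwa [mem_closedBall_zero_iff]) y
      (by rwa [mem_closedBall_zero_iff])
    rwa [dist_eq_norm, dist_eq_norm] at this
  have hsub : B ⊆ closedBall 0 1 := ball_subset_closedBall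
  have hdg : ∀ x ∈ B, DifferentiableAt ℝ g x := fun x hx =>
    ((hr x (hsub hx)).sub contDiffAt_id).differentiableAt (by norm_num)
  have hdr : ∀ x ∈ B, DifferentiableAt ℝ r x := fun x hx =>
    (hr x (hsub hx)).differentiableAt (by norm_num)
  have hgn : ∀ x ∈ B, ‖fderiv ℝ g x‖ ≤ K := by
    intro x hx
    apply norm_fderiv_le_of_lipschitzOn ℝ (s := B) (isOpen_ball.mem_nhds hx)
    exact hKlip.mono hsub
  obtain ⟨ε, hε, hdet⟩ := det_pos (ι := ι) K hK
  set t0 : ℝ := min ε (min (1 / 2) (1 / (K + 1))) with ht0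
  have ht0p : 0 < t0 := by
    rw [ht0]
    refine lt_min hε (lt_min (by norm_num) (by positivity))
  have hvol : ∀ t : ℝ, 0 ≤ t → t < t0 →
      IntegrableOn (fun x => (1 + t • fderiv ℝ g x).det) B ∧
      ∫ x in B, (1 + t • fderiv ℝ g x).det = volume.real B := by
    intro t htn htlt
    have hte : t < ε := htlt.trans_le (min_le_left _ _)
    have hth : t < 1 := (htlt.trans_le ((min_le_right _ _).trans (min_le_left _ _))).trans
      (by norm_num)
    have htK : t * K < 1 := by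
      have h3 : t < 1 / ((K : ℝ) + 1) := htlt.trans_le ((min_le_right _ _).trans (min_le_right _ _))
      rw [lt_div_iff₀ (by positivity)] at h3
      nlinarith
    have himg := image_eq r K hK hlip h1 h2 t htn hth htK
    have hinj := inj g K hlip t htn htK
    have hder : ∀ x ∈ B, HasFDerivWithinAt (fun x => x + t • g x) (1 + t • fderiv ℝ g x) B x := by
      intro x hx
      apply HasFDerivAt.hasFDerivWithinAt
      have := (hasFDerivAt_id x).add ((hdg x hx).hasFDerivAt.const_smul t)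
      exact this
    have habs : ∀ x ∈ B, |(1 + t • fderiv ℝ g x).det| = (1 + t • fderiv ℝ g x).det := by
      intro x hx
      exact abs_of_pos (hdet _ (hgn x hx) t htn hte)
    have hI := integral_image_eq_integral_abs_det_fderiv_smul volume measurableSet_ball hder hinj
      (fun _ => (1 : ℝ))
    have hI2 := (integrableOn_image_iff_integrableOn_abs_det_fderiv_smul volume measurableSet_ball
      hder hinj (fun _ => (1 : ℝ)))
    have himg2 : (fun x => x + t • g x) '' B = B := himg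
    rw [himg2] at hI hI2
    simp only [smul_eq_mul, mul_one] at hI hI2
    constructor
    · have h4 : IntegrableOn (fun _ : EuclideanSpace ℝ ι => (1 : ℝ)) B :=
        integrableOn_const (by simp [hB, measure_ball_lt_top.ne])
      refine (hI2.1 h4).congr_fun (fun x hx => habs x hx) measurableSet_ball
    · rw [← setIntegral_congr_fun measurableSet_ball (fun x hx => habs x hx), ← hI]
      simp
  obtain ⟨v, w, hv, hw⟩ := exists_weights (Fintype.card ι) t0 ht0p
  have hpt : ∀ x, (1 + (1 : ℝ) • fderiv ℝ g x).det =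
      ∑ i ∈ Finset.range (Fintype.card ι + 1), w i * (1 + v i • fderiv ℝ g x).det := by
    intro x
    obtain ⟨P, hP, hPe⟩ := det_poly (fderiv ℝ g x)
    rw [hPe, hw P hP]
    exact Finset.sum_congr rfl fun i _ => by rw [hPe]
  have hone : ∑ i ∈ Finset.range (Fintype.card ι + 1), w i = 1 := by
    have := hw (Polynomial.C 1) (by simp)
    simpa using this.symm
  have hint : ∫ x in B, (1 + (1 : ℝ) • fderiv ℝ g x).det = volume.real B := by
    simp only [hpt]
    rw [integral_finsetSum]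
    · simp only [integral_const_mul]
      rw [Finset.sum_congr rfl fun i hi => by rw [(hvol (v i) (hv i hi).1 (hv i hi).2).2],
        ← Finset.sum_mul, hone, one_mul]
    · intro i hi
      exact (hvol (v i) (hv i hi).1 (hv i hi).2).1.const_mul _
  have hzero : ∀ x ∈ B, (1 + (1 : ℝ) • fderiv ℝ g x).det = 0 := by
    intro x hx
    have e1 : (1 + (1 : ℝ) • fderiv ℝ g x) = fderiv ℝ r x := by
      have : fderiv ℝ g x = fderiv ℝ r x - ContinuousLinearMap.id ℝ _ := by
        rw [hg]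
        have h5 := ((hdr x hx).hasFDerivAt.sub (hasFDerivAt_id x)).fderiv
        exact h5
      rw [this, one_smul]
      ext v
      simp
    rw [e1]
    by_contra hne
    have hsurj : Function.Surjective (fderiv ℝ r x) := by
      have h6 : LinearMap.det (fderiv ℝ r x : EuclideanSpace ℝ ι →ₗ[ℝ] EuclideanSpace ℝ ι) ≠ 0 := hne
      intro y
      refine ⟨(LinearMap.equivOfDetNeZero _ h6).symm y, ?_⟩
      exact (LinearMap.equivOfDetNeZero _ h6).apply_symm_apply y
    obtain ⟨v, hv⟩ := hsurj (r x)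
    have h7 : HasFDerivAt (fun y => inner ℝ (r y) (r y)) (0 : EuclideanSpace ℝ ι →L[ℝ] ℝ) x := by
      have h8 : (fun y => inner ℝ (r y) (r y)) =ᶠ[𝓝 x] fun _ => (1 : ℝ) := by
        filter_upwards [isOpen_ball.mem_nhds hx] with y hy
        rw [real_inner_self_eq_norm_sq, h1 y (hsub hy)]
        norm_num
      exact (hasFDerivAt_const (1 : ℝ) x).congr_of_eventuallyEq h8
    have h9 := (hdr x hx).hasFDerivAt.inner ℝ (hdr x hx).hasFDerivAt
    have h10 := h7.unique h9
    have h11 := congrArg (fun L => L v) h10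
    simp only [zero_apply, ContinuousLinearMap.comp_apply,
      ContinuousLinearMap.prod_apply, fderivInnerCLM_apply, hv] at h11
    rw [real_inner_self_eq_norm_sq, h1 x (hsub hx)] at h11
    norm_num at h11
  rw [setIntegral_congr_fun measurableSet_ball hzero] at hint
  simp only [integral_zero] at hint
  have hpos : 0 < volume.real B := by
    rw [measureReal_def]
    apply ENNReal.toReal_pos
    · exact (measure_ball_pos volume _ (by norm_num)).ne'
    · exact measure_ball_lt_top.ne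
  linarith

end Vale.Agent.Tal
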