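import Vale.Agent.Tal.PartA1

/-!
# P034 Part A2: Brouwer's theorem for bounded `C¹` maps
-/

namespace Vale.Agent.Tal

open Metric Set Topology

theorem brouwer_smooth {ι : Type} [Fintype ι]
    (G : EuclideanSpace ℝ ι → EuclideanSpace ℝ ι) (hG : ContDiff ℝ 1 G) (R : ℝ)
    (hR : ∀ x, ‖G x‖ ≤ R) : ∃ x, G x = x := by
  by_contra hcon
  push Not at hcon
  have hR0 : 0 ≤ R := (norm_nonneg _).trans (hR 0)
  have hR1 : 0 < R + 1 := by linarith
  set G1 : EuclideanSpace ℝ ι → EuclideanSpace ℝ ι := fun x => (R + 1)⁻¹ • G ((R + 1) • x) with hG1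
  have hG1c : ContDiff ℝ 1 G1 := by
    apply ContDiff.const_smul
    exact hG.comp (contDiff_const_smul _)
  have hG1n : ∀ x, ‖G1 x‖ < 1 := by
    intro x
    simp only [hG1]
    rw [norm_smul, norm_inv, Real.norm_eq_abs, abs_of_pos hR1, inv_mul_lt_iff₀ hR1]
    have := hR ((R + 1) • x)
    linarith
  have hG1ne : ∀ x, x - G1 x ≠ 0 := by
    intro x h0
    apply hcon ((R + 1) • x)
    rw [sub_eq_zero] at h0
    conv_rhs => rw [h0]
    simp only [hG1]
    rw [smul_smul, mul_inv_cancel₀ hR1.ne', one_smul]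
  set u : EuclideanSpace ℝ ι → EuclideanSpace ℝ ι := fun x => x - G1 x with hu
  have huc : ContDiff ℝ 1 u := contDiff_id.sub hG1c
  set disc : EuclideanSpace ℝ ι → ℝ := fun x =>
    inner ℝ x (u x) ^ 2 + ‖u x‖ ^ 2 * (1 - ‖x‖ ^ 2) with hdisc
  have hdc : ContDiff ℝ 1 disc := by
    apply ContDiff.add
    · exact (contDiff_id.inner ℝ huc).pow 2
    · exact (huc.norm_sq ℝ).mul (contDiff_const.sub (contDiff_id.norm_sq ℝ))
  have hsph : ∀ x, ‖x‖ = 1 → 0 < inner ℝ x (u x) := by
    intro x hx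
    simp only [hu]
    rw [inner_sub_right, real_inner_self_eq_norm_sq, hx]
    have h1 := real_inner_le_norm x (G1 x)
    have h2 := hG1n x
    rw [hx, one_mul] at h1
    linarith
  have hdp : ∀ x ∈ closedBall (0 : EuclideanSpace ℝ ι) 1, 0 < disc x := by
    intro x hx
    rw [mem_closedBall_zero_iff] at hx
    have hun : 0 < ‖u x‖ := norm_pos_iff.2 (hG1ne x)
    rcases lt_or_eq_of_le hx with h | h
    · have h1 : 0 < 1 - ‖x‖ ^ 2 := by nlinarith [norm_nonneg x]
      simp only [hdisc]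
      positivity
    · have h1 := hsph x h
      simp only [hdisc]
      rw [h]
      norm_num
      positivity
  set r : EuclideanSpace ℝ ι → EuclideanSpace ℝ ι := fun x =>
    x + ((-inner ℝ x (u x) + Real.sqrt (disc x)) / ‖u x‖ ^ 2) • u x with hrdef
  apply no_retraction r
  · intro x hx
    have hun : ‖u x‖ ^ 2 ≠ 0 := by
      have : 0 < ‖u x‖ := norm_pos_iff.2 (hG1ne x)
      positivity
    have c1 : ContDiffAt ℝ 1 (fun y => -inner ℝ y (u y)) x :=
      (contDiff_id.inner ℝ huc).neg.contDiffAt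
    have c2 : ContDiffAt ℝ 1 (fun y => Real.sqrt (disc y)) x :=
      (Real.contDiffAt_sqrt (hdp x hx).ne').comp x hdc.contDiffAt
    have c3 : ContDiffAt ℝ 1 (fun y => (-inner ℝ y (u y) + Real.sqrt (disc y)) / ‖u y‖ ^ 2) x :=
      (c1.add c2).div (huc.norm_sq ℝ).contDiffAt hun
    exact contDiffAt_id.add (c3.smul huc.contDiffAt)
  · intro x hx
    have hun : 0 < ‖u x‖ := norm_pos_iff.2 (hG1ne x)
    have hs := Real.sq_sqrt (hdp x hx).le
    have h1 : ‖r x‖ ^ 2 = 1 := by
      simp only [hrdef]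
      rw [norm_add_sq_real, inner_smul_right, norm_smul, mul_pow, Real.norm_eq_abs, sq_abs]
      set s := Real.sqrt (disc x)
      set a := inner ℝ x (u x)
      have h2 : s ^ 2 = a ^ 2 + ‖u x‖ ^ 2 * (1 - ‖x‖ ^ 2) := hs
      field_simp
      have h3 : (-a + s) ^ 2 = a ^ 2 - 2 * a * s + s ^ 2 := by ring
      rw [h3, h2]
      ring
    nlinarith [norm_nonneg (r x)]
  · intro x hx
    have h1 := hsph x hx
    have h2 : disc x = inner ℝ x (u x) ^ 2 := by
      simp only [hdisc]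
      rw [hx]; norm_num
    simp only [hrdef]
    rw [h2, Real.sqrt_sq h1.le]
    simp

end Vale.Agent.Tal
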