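import Vale.Agent.Tal.PartA2
import Vale.Agent.Tal.Defs

/-!
# P034 Part B: super-fixed points on the simplex
-/

namespace Vale.Agent.Tal

open Finset Real

lemma softmax_pos {ι : Type} [Fintype ι] [Nonempty ι] (x : ι → ℝ) (i : ι) : 0 < softmax x i := by
  unfold softmax
  have : 0 < ∑ j, exp (x j) := Finset.sum_pos (fun j _ => exp_pos _) Finset.univ_nonempty
  exact div_pos (exp_pos _) this

lemma softmax_sum {ι : Type} [Fintype ι] [Nonempty ι] (x : ι → ℝ) : ∑ i, softmax x i = 1 := by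
  unfold softmax
  have : 0 < ∑ j, exp (x j) := Finset.sum_pos (fun j _ => exp_pos _) Finset.univ_nonempty
  rw [← Finset.sum_div, div_self this.ne']

theorem exists_super_fixed {ι : Type} [Fintype ι] [Nonempty ι] (T : (ι → ℝ) → (ι → ℝ))
    {δ : ℝ} (hδ : 0 < δ)
    (hT0 : ∀ m : ι → ℝ, (∀ i, 0 < m i) → ∑ i, m i = 1 → ∀ i, δ ≤ T m i)
    (hT1 : ∀ m : ι → ℝ, (∀ i, 0 < m i) → ∑ i, m i = 1 → ∑ i, T m i ≤ 1)
    (hTs : ∀ i, ContDiff ℝ 1 (fun x : ι → ℝ => T (softmax x) i)) :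
    ∃ m : ι → ℝ, (∀ i, 0 < m i) ∧ ∑ i, m i = 1 ∧ ∀ i, T m i ≤ m i := by
  classical
  have hlo : ∀ x : ι → ℝ, ∀ i, δ ≤ T (softmax x) i := fun x i =>
    hT0 _ (softmax_pos x) (softmax_sum x) i
  have hpos : ∀ x : ι → ℝ, ∀ i, 0 < T (softmax x) i := fun x i => hδ.trans_le (hlo x i)
  have hsum : ∀ x : ι → ℝ, ∑ i, T (softmax x) i ≤ 1 := fun x =>
    hT1 _ (softmax_pos x) (softmax_sum x)
  have hup : ∀ x : ι → ℝ, ∀ i, T (softmax x) i ≤ 1 := fun x i =>
    (Finset.single_le_sum (fun j _ => (hpos x j).le) (Finset.mem_univ i)).trans (hsum x)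
  set G : EuclideanSpace ℝ ι → EuclideanSpace ℝ ι := fun x =>
    WithLp.toLp 2 (fun i => log (T (softmax (WithLp.ofLp x)) i)) with hG
  have hGc : ContDiff ℝ 1 G := by
    rw [contDiff_euclidean]
    intro i
    have h1 : ContDiff ℝ 1 (fun x : EuclideanSpace ℝ ι => T (softmax (WithLp.ofLp x)) i) :=
      (hTs i).comp (PiLp.contDiff_ofLp)
    exact h1.log fun x => (hpos _ i).ne'
  have hGb : ∀ x, ‖G x‖ ≤ Real.sqrt (Fintype.card ι) * |log δ| := by
    intro x
    have h1 : ‖G x‖ ^ 2 ≤ (Real.sqrt (Fintype.card ι) * |log δ|) ^ 2 := by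
      rw [EuclideanSpace.real_norm_sq_eq, mul_pow, Real.sq_sqrt (by positivity)]
      calc ∑ i, (G x).ofLp i ^ 2 ≤ ∑ _i : ι, |log δ| ^ 2 := by
            apply Finset.sum_le_sum
            intro i _
            show (log (T (softmax (WithLp.ofLp x)) i)) ^ 2 ≤ |log δ| ^ 2
            rw [sq_le_sq, abs_abs]
            have h2 : log δ ≤ log (T (softmax (WithLp.ofLp x)) i) := log_le_log hδ (hlo _ i)
            have h3 : log (T (softmax (WithLp.ofLp x)) i) ≤ 0 := log_nonpos (hpos _ i).le (hup _ i)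
            rw [abs_of_nonpos h3, abs_of_nonpos (h2.trans h3)]
            linarith
        _ = _ := by simp
    exact le_of_sq_le_sq h1 (by positivity)
  obtain ⟨x, hx⟩ := brouwer_smooth G hGc _ hGb
  refine ⟨softmax (WithLp.ofLp x), softmax_pos _, softmax_sum _, ?_⟩
  have hxi : ∀ i, (WithLp.ofLp x) i = log (T (softmax (WithLp.ofLp x)) i) := by
    intro i
    conv_lhs => rw [← hx]
  have hex : ∀ i, exp ((WithLp.ofLp x) i) = T (softmax (WithLp.ofLp x)) i := by
    intro i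
    rw [hxi i, exp_log (hpos _ i)]
  intro i
  have h1 : softmax (WithLp.ofLp x) i = T (softmax (WithLp.ofLp x)) i /
      ∑ j, T (softmax (WithLp.ofLp x)) j := by
    conv_lhs => unfold softmax
    rw [hex i, Finset.sum_congr rfl fun j _ => hex j]
  rw [h1, le_div_iff₀ (Finset.sum_pos (fun j _ => hpos _ j) Finset.univ_nonempty)]
  have := mul_le_mul_of_nonneg_left (hsum (WithLp.ofLp x)) (hpos (WithLp.ofLp x) i).le
  linarith

end Vale.Agent.Tal
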