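import Vale.Agent.Tal.PartB

/-!
# P034 Part C: the universal closed measure
-/

namespace Vale.Agent.Tal

open Finset Real Vale.Agent.P064

namespace CloC

variable {X : Type} [Fintype X] [DecidableEq X]

lemma wt_pos (m : Finset X → ℝ) (lam τ : ℝ) (J : Finset X) : 0 < wt m lam τ J := exp_pos _

lemma Zp_pos (m : Finset X → ℝ) (lam τ : ℝ) (C : Finset X) : 0 < Zp m lam τ C :=
  Finset.sum_pos (fun _ _ => wt_pos _ _ _ _) ⟨∅, Finset.empty_mem_powerset C⟩

lemma kerT_nonneg (m : Finset X → ℝ) (lam τ : ℝ) (C J : Finset X) : 0 ≤ kerT m lam τ C J := by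
  unfold kerT
  split_ifs
  · exact (div_pos (wt_pos _ _ _ _) (Zp_pos _ _ _ _)).le
  · exact le_rfl

lemma kerT_self_pos (m : Finset X → ℝ) (lam τ : ℝ) (C : Finset X) : 0 < kerT m lam τ C C := by
  unfold kerT
  rw [if_pos (Finset.Subset.refl C)]
  exact div_pos (wt_pos _ _ _ _) (Zp_pos _ _ _ _)

lemma sum_kerT (m : Finset X → ℝ) (lam τ : ℝ) (C : Finset X) : ∑ J, kerT m lam τ C J = 1 := by
  unfold kerT
  rw [← Finset.sum_filter]
  have h1 : (Finset.univ.filter fun J : Finset X => J ⊆ C) = C.powerset := by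
    ext J; simp
  rw [h1, ← Finset.sum_div]
  exact div_self (Zp_pos m lam τ C).ne'

lemma Rm_nonneg {m : Finset X → ℝ} (hm : ∀ S, 0 < m S) (lam τ : ℝ) (J : Finset X) :
    0 ≤ Rm m lam τ J :=
  Finset.sum_nonneg fun C _ => mul_nonneg (hm C).le (kerT_nonneg _ _ _ _ _)

lemma Rm_pos {m : Finset X → ℝ} (hm : ∀ S, 0 < m S) (lam τ : ℝ) (J : Finset X) :
    0 < Rm m lam τ J := by
  unfold Rm
  exact Finset.sum_pos' (fun C _ => mul_nonneg (hm C).le (kerT_nonneg _ _ _ _ _))
    ⟨J, Finset.mem_univ J, mul_pos (hm J) (kerT_self_pos m lam τ J)⟩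

lemma sum_Rm {m : Finset X → ℝ} (lam τ : ℝ) : ∑ J, Rm m lam τ J = ∑ C, m C := by
  unfold Rm
  rw [Finset.sum_comm]
  refine Finset.sum_congr rfl fun C _ => ?_
  rw [← Finset.mul_sum, sum_kerT, mul_one]

lemma M2_nonneg {m : Finset X → ℝ} (hm : ∀ S, 0 < m S) (lam τ : ℝ) (x : Finset X × Finset X) :
    0 ≤ M2 m lam τ x := by
  unfold M2
  exact div_nonneg (mul_nonneg (mul_nonneg (hm _).le (kerT_nonneg _ _ _ _ _))
    (mul_nonneg (hm _).le (kerT_nonneg _ _ _ _ _))) (Rm_nonneg hm _ _ _)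

lemma sum_M2 {m : Finset X → ℝ} (hm : ∀ S, 0 < m S) (lam τ : ℝ) :
    ∑ x, M2 m lam τ x ≤ ∑ C, m C := by
  rw [← sum_Rm (m := m) lam τ]
  calc ∑ x, M2 m lam τ x
      = ∑ x : Finset X × Finset X, ∑ J, if J = iP x then
          (m x.1 * kerT m lam τ x.1 J) * (m x.2 * kerT m lam τ x.2 J) / Rm m lam τ J else 0 := by
        refine Finset.sum_congr rfl fun x _ => ?_
        rw [Finset.sum_ite_eq' Finset.univ (iP x)]
        simp [M2]
    _ ≤ ∑ x : Finset X × Finset X, ∑ J,
          (m x.1 * kerT m lam τ x.1 J) * (m x.2 * kerT m lam τ x.2 J) / Rm m lam τ J := by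
        refine Finset.sum_le_sum fun x _ => Finset.sum_le_sum fun J _ => ?_
        split_ifs
        · exact le_rfl
        · exact div_nonneg (mul_nonneg (mul_nonneg (hm _).le (kerT_nonneg _ _ _ _ _))
            (mul_nonneg (hm _).le (kerT_nonneg _ _ _ _ _))) (Rm_nonneg hm _ _ _)
    _ = ∑ J, ∑ x : Finset X × Finset X,
          (m x.1 * kerT m lam τ x.1 J) * (m x.2 * kerT m lam τ x.2 J) / Rm m lam τ J :=
        Finset.sum_comm
    _ = ∑ J, Rm m lam τ J := by
        refine Finset.sum_congr rfl fun J _ => ?_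
        rw [← Finset.sum_div]
        have h1 : ∑ x : Finset X × Finset X, (m x.1 * kerT m lam τ x.1 J) *
            (m x.2 * kerT m lam τ x.2 J) = Rm m lam τ J * Rm m lam τ J := by
          unfold Rm
          rw [Finset.sum_mul_sum, Fintype.sum_prod_type]
        rw [h1, mul_div_assoc, div_self (Rm_pos hm lam τ J).ne', mul_one]

/-- smoothness -/
lemma cd_softmax (S : Finset X) :
    ContDiff ℝ 1 (fun x : Finset X → ℝ => softmax x S) := by
  unfold softmax
  apply ContDiff.div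
  · exact (contDiff_apply ℝ ℝ S).exp
  · exact ContDiff.sum fun j _ => (contDiff_apply ℝ ℝ j).exp
  · intro x
    exact (Finset.sum_pos (fun j _ => exp_pos _) Finset.univ_nonempty).ne'

lemma cd_wt (lam τ : ℝ) (J : Finset X) :
    ContDiff ℝ 1 (fun x : Finset X → ℝ => wt (softmax x) lam τ J) := by
  unfold wt
  apply ContDiff.exp
  apply ContDiff.add _ contDiff_const
  apply contDiff_const.mul
  exact (cd_softmax J).log fun x => (softmax_pos x J).ne'

lemma cd_Zp (lam τ : ℝ) (C : Finset X) :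
    ContDiff ℝ 1 (fun x : Finset X → ℝ => Zp (softmax x) lam τ C) := by
  unfold Zp
  exact ContDiff.sum fun j _ => cd_wt lam τ j

lemma cd_ker (lam τ : ℝ) (C J : Finset X) :
    ContDiff ℝ 1 (fun x : Finset X → ℝ => kerT (softmax x) lam τ C J) := by
  unfold kerT
  by_cases h : J ⊆ C
  · simp only [if_pos h]
    exact (cd_wt lam τ J).div (cd_Zp lam τ C) fun x => (Zp_pos _ _ _ _).ne'
  · simp only [if_neg h]
    exact contDiff_const

lemma cd_Rm (lam τ : ℝ) (J : Finset X) :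
    ContDiff ℝ 1 (fun x : Finset X → ℝ => Rm (softmax x) lam τ J) := by
  unfold Rm
  exact ContDiff.sum fun C _ => (cd_softmax C).mul (cd_ker lam τ C J)

lemma cd_M2 (lam τ : ℝ) (z : Finset X × Finset X) :
    ContDiff ℝ 1 (fun x : Finset X → ℝ => M2 (softmax x) lam τ z) := by
  unfold M2
  exact (((cd_softmax _).mul (cd_ker _ _ _ _)).mul ((cd_softmax _).mul (cd_ker _ _ _ _))).div
    (cd_Rm _ _ _) fun x => (Rm_pos (softmax_pos x) _ _ _).ne'

lemma cd_mass (lam τ : ℝ) (U : Finset X) :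
    ContDiff ℝ 1 (fun x : Finset X → ℝ => mass (M2 (softmax x) lam τ) uP U) := by
  unfold mass
  apply ContDiff.sum
  intro z _
  by_cases h : uP z = U
  · simp only [if_pos h]; exact cd_M2 _ _ _
  · simp only [if_neg h]; exact contDiff_const

end CloC

open CloC in
theorem exists_closed {X : Type} [Fintype X] [DecidableEq X] (m0 : Finset X → ℝ)
    (h0 : ∀ S, 0 ≤ m0 S) (h1 : ∑ S, m0 S ≤ 1) (lam1 τ1 lam2 τ2 : ℝ) :
    ∃ m : Finset X → ℝ, (∀ S, 0 < m S) ∧ ∑ S, m S = 1 ∧ (∀ S, m0 S ≤ 12 * m S) ∧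
      ClosedK m lam1 τ1 ∧ ClosedK m lam2 τ2 := by
  set N : ℝ := (Fintype.card (Finset X) : ℝ) with hN
  have hNpos : 0 < N := by
    rw [hN]
    exact_mod_cast Fintype.card_pos
  set T : (Finset X → ℝ) → (Finset X → ℝ) := fun m S => (1 / 12) * (m0 S + 1 / N +
    Rm m lam1 τ1 S + mass (M2 m lam1 τ1) uP S + Rm m lam2 τ2 S + mass (M2 m lam2 τ2) uP S) with hT
  obtain ⟨m, hm, hm1, hTm⟩ := exists_super_fixed T (δ := 1 / (12 * N)) (by positivity)
    (by
      intro m hm _ S
      have e1 := Rm_nonneg hm lam1 τ1 S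
      have e2 := Rm_nonneg hm lam2 τ2 S
      have e3 : 0 ≤ mass (M2 m lam1 τ1) uP S := mass_nonneg (M2_nonneg hm _ _) _ _
      have e4 : 0 ≤ mass (M2 m lam2 τ2) uP S := mass_nonneg (M2_nonneg hm _ _) _ _
      have e5 : 1 / (12 * N) = (1 / 12) * (1 / N) := by field_simp
      simp only [hT]
      rw [e5]
      have := h0 S
      linarith)
    (by
      intro m hm hm1
      simp only [hT]
      rw [← Finset.mul_sum]
      simp only [Finset.sum_add_distrib]
      rw [sum_Rm, sum_Rm, sum_mass, sum_mass, hm1]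
      have e1 := sum_M2 hm lam1 τ1
      have e2 := sum_M2 hm lam2 τ2
      rw [hm1] at e1 e2
      have e3 : ∑ _S : Finset X, 1 / N = 1 := by
        rw [Finset.sum_const, Finset.card_univ, nsmul_eq_mul, ← hN]
        field_simp
      rw [e3]
      linarith)
    (by
      intro S
      simp only [hT]
      apply contDiff_const.mul
      exact ((((contDiff_const.add (cd_Rm _ _ _)).add (cd_mass _ _ _)).add (cd_Rm _ _ _)).add
        (cd_mass _ _ _)))
  have key : ∀ S, m0 S + 1 / N + Rm m lam1 τ1 S + mass (M2 m lam1 τ1) uP S + Rm m lam2 τ2 S +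
      mass (M2 m lam2 τ2) uP S ≤ 12 * m S := by
    intro S
    have := hTm S
    simp only [hT] at this
    linarith
  have hp : 0 < 1 / N := by positivity
  have e1 := fun S => Rm_nonneg hm lam1 τ1 S
  have e2 := fun S => Rm_nonneg hm lam2 τ2 S
  have e3 : ∀ S, 0 ≤ mass (M2 m lam1 τ1) uP S := fun S => mass_nonneg (M2_nonneg hm _ _) _ _
  have e4 : ∀ S, 0 ≤ mass (M2 m lam2 τ2) uP S := fun S => mass_nonneg (M2_nonneg hm _ _) _ _
  refine ⟨m, hm, hm1, fun S => ?_, ⟨fun S => ?_, fun S => ?_⟩, ⟨fun S => ?_, fun S => ?_⟩⟩ <;>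
  · have k := key S
    have := h0 S
    have a1 := e1 S
    have a2 := e2 S
    have a3 := e3 S
    have a4 := e4 S
    linarith

end Vale.Agent.Tal
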