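import Vale.Agent.Tal.Defs

namespace Vale.Agent.Tal

open Finset Real Vale.Agent.P064

set_option linter.unusedSectionVars false

variable {X : Type} [Fintype X] [DecidableEq X]

section Gen

variable {σ : Type} [Fintype σ] [DecidableEq σ]

lemma nxt_suppS {S : Finset X → Prop} (hSu : ∀ a b, S a → S b → S (a ∪ b))
    {u : σ × Finset X → ℝ} (hs : ∀ x, u x ≠ 0 → S x.2) :
    ∀ x, nxt u x ≠ 0 → S x.2 := by
  intro x hx
  by_contra hcon
  apply hx
  unfold nxt mass
  refine Finset.sum_eq_zero (fun y _ => ?_)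
  by_cases hy : (y.1, y.2.1 ∪ y.2.2) = x
  · rw [if_pos hy]
    by_contra h
    apply hcon
    rw [← hy]
    have ha : u (y.1, y.2.1) ≠ 0 := fun h' => h (by simp [dbl, h'])
    have hb : u (y.1, y.2.2) ≠ 0 := fun h' => h (by simp [dbl, h'])
    exact hSu _ _ (hs _ ha) (hs _ hb)
  · rw [if_neg hy]

lemma itn_suppS {S : Finset X → Prop} (hSu : ∀ a b, S a → S b → S (a ∪ b))
    {u : σ × Finset X → ℝ} (hs : ∀ x, u x ≠ 0 → S x.2) (t : ℕ) :
    ∀ x, itn u t x ≠ 0 → S x.2 := by
  induction t with
  | zero => exact hs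
  | succ t ih => exact nxt_suppS hSu ih

lemma prl_suppS {S : Finset X → Prop} {u : σ × Finset X → ℝ} (hs : ∀ x, u x ≠ 0 → S x.2) :
    ∀ x, prl u x ≠ 0 → S x.1 ∧ S x.2 := by
  intro x hx
  by_contra hcon
  apply hx
  unfold prl mass
  refine Finset.sum_eq_zero (fun y _ => ?_)
  by_cases hy : (y.2.1, y.2.2) = x
  · rw [if_pos hy]
    by_contra h
    apply hcon
    rw [← hy]
    have ha : u (y.1, y.2.1) ≠ 0 := fun h' => h (by simp [dbl, h'])
    have hb : u (y.1, y.2.2) ≠ 0 := fun h' => h (by simp [dbl, h'])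
    exact ⟨hs _ ha, hs _ hb⟩
  · rw [if_neg hy]

lemma mass_snd_suppS {S : Finset X → Prop} {u : σ × Finset X → ℝ}
    (hs : ∀ x, u x ≠ 0 → S x.2) : ∀ z, mass u Prod.snd z ≠ 0 → S z := by
  intro z hz
  by_contra hcon
  apply hz
  rw [mass_snd]
  refine Finset.sum_eq_zero (fun s _ => ?_)
  by_contra h
  exact hcon (hs _ h)

lemma mass_fst_suppS {S : Finset X → Prop} {r : Finset X × σ → ℝ}
    (hs : ∀ x, r x ≠ 0 → S x.1) : ∀ z, mass r Prod.fst z ≠ 0 → S z := by
  intro z hz
  by_contra hcon
  apply hz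
  rw [mass_fst]
  refine Finset.sum_eq_zero (fun s _ => ?_)
  by_contra h
  exact hcon (hs _ h)

theorem nogrowthE {S : Finset X → Prop} {ex : Finset X → ℝ} {B Φ c κ : ℝ}
    (hSu : ∀ a b, S a → S b → S (a ∪ b)) (hD : ∀ p, Law S p → 0 ≤ De ex p)
    (hB : 0 ≤ B) (hΦ : 0 ≤ Φ) (hc : 0 ≤ c) (hκ : 0 ≤ κ)
    (hη : 2 * B * ((c + 1) * Φ + κ) ≤ Φ / 5) (hη1 : 2 * B * (c + 1) ≤ 1 / 5)
    (hpair : PairE S ex B Φ) (hunion : UnionE S ex B Φ c κ)
    {u : σ × Finset X → ℝ} (hu : ∀ x, 0 ≤ u x)
    (h1 : ∑ x, u x = 1) (hs : ∀ x, u x ≠ 0 → S x.2) (t : ℕ) :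
    ∑ s, ∑ e, mass u Prod.fst s * (1 - (pout u s e / mass u Prod.fst s) ^ (2 ^ t)) ^ 2
      ≤ (11 / 5) ^ t * (Φ + mi u + 2 * B * De ex (mass u Prod.snd)) := by
  have hmi0 : 0 ≤ mi u := mi_nonneg hu h1
  -- the pair bound along the iteration
  have hlaw : ∀ t, Law2 S (prl (itn u t)) := fun t =>
    ⟨prl_nonneg (itn_nonneg hu t), by rw [sum_prl (itn_nonneg hu t), itn_sum hu, h1],
      prl_suppS (itn_suppS hSu hs t)⟩
  have hj : ∀ t, ∑ x, prl (itn u t) x * ((iP x).card : ℝ)
      ≤ Φ + mi (itn u t) + 2 * B * De ex (mass (itn u t) Prod.snd) := by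
    intro t
    have hut := itn_nonneg hu t
    have h := hpair (prl (itn u t)) (hlaw t)
    rw [prl_fst hut, prl_snd hut] at h
    have h2 := mi_prl_le hut
    linarith
  have hD0 : ∀ t, 0 ≤ De ex (mass (itn u t) Prod.snd) := fun t =>
    hD _ ⟨mass_nonneg (itn_nonneg hu t) _, by rw [sum_mass, itn_sum hu, h1],
      mass_snd_suppS (itn_suppS hSu hs t)⟩
  have hV : ∀ t, 2 * B * De ex (mass (itn u t) Prod.snd) + Φ + 2 ^ t * mi u
      ≤ (11 / 5) ^ t * (Φ + mi u + 2 * B * De ex (mass u Prod.snd)) := by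
    intro t
    induction t with
    | zero => simp [itn]; linarith
    | succ t ih =>
      have hut := itn_nonneg hu t
      have hub := hunion (prl (itn u t)) (hlaw t) (prl_sym _)
      rw [prl_union, prl_fst hut] at hub
      have hm1 := mi_prl_le hut
      have hm2 := itn_mi hu h1 t
      have hjt := hj t
      set d := De ex (mass (itn u t) Prod.snd) with hd
      have hd0 : 0 ≤ d := hD0 t
      set M := 2 ^ t * mi u with hM
      have hM0 : 0 ≤ M := by positivity
      set j := ∑ x, prl (itn u t) x * ((iP x).card : ℝ) with hjdef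
      have hjb : j ≤ Φ + M + 2 * B * d := by linarith
      set V := Φ + M + 2 * B * d with hVdef
      have hBd : 0 ≤ B * d := by positivity
      -- main estimate
      have hd' : De ex (mass (nxt (itn u t)) Prod.snd) ≤ 2 * d + (c + 1) * V + κ := by
        have h3 := mul_le_mul_of_nonneg_left hjb hc
        have h4 : mi (prl (itn u t)) + (Φ + 2 * B * d) ≤ V := by
          rw [hVdef]; linarith
        have h5 : (c + 1) * V = c * V + V := by ring
        rw [h5]
        linarith
      have h4 : 2 * B * De ex (mass (nxt (itn u t)) Prod.snd)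
          ≤ 2 * B * (2 * d + (c + 1) * V + κ) :=
        mul_le_mul_of_nonneg_left hd' (by linarith)
      have hVΦ : Φ ≤ V := by rw [hVdef]; linarith
      have h6 : 2 * B * ((c + 1) * V + κ) ≤ V / 5 := by
        have h7 : 2 * B * ((c + 1) * V + κ)
            = 2 * B * (c + 1) * (V - Φ) + 2 * B * ((c + 1) * Φ + κ) := by ring
        have h8 := mul_le_mul_of_nonneg_right hη1 (show (0:ℝ) ≤ V - Φ by linarith)
        rw [h7]
        linarith
      show 2 * B * De ex (mass (nxt (itn u t)) Prod.snd) + Φ + 2 ^ (t + 1) * mi u ≤ _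
      have h7 : 2 * B * De ex (mass (nxt (itn u t)) Prod.snd) + Φ + 2 ^ (t + 1) * mi u
          ≤ (11 / 5) * (2 * B * d + Φ + M) := by
        have e : 2 ^ (t + 1) * mi u = 2 * M := by rw [hM]; ring
        have e2 : 2 * B * (2 * d + (c + 1) * V + κ)
            = 4 * (B * d) + 2 * B * ((c + 1) * V + κ) := by ring
        rw [e2] at h4
        rw [e]
        have e3 : V = Φ + M + 2 * (B * d) := by rw [hVdef]; ring
        rw [e3] at h6
        have e4 : (11 / 5 : ℝ) * (2 * B * d + Φ + M) = (11 / 5) * (2 * (B * d) + Φ + M) := by ring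
        rw [e4]
        rw [e3] at h4
        linarith
      have h8 := mul_le_mul_of_nonneg_left ih (show (0:ℝ) ≤ 11 / 5 by norm_num)
      rw [← mul_assoc (11 / 5 : ℝ) ((11 / 5) ^ t), ← pow_succ'] at h8
      exact h7.trans h8
  have hfin : ∑ s, ∑ e, mass u Prod.fst s * (1 - (pout u s e / mass u Prod.fst s) ^ (2 ^ t)) ^ 2
      = ∑ x, prl (itn u t) x * ((iP x).card : ℝ) := by
    rw [sum_prl_inter]
    refine Finset.sum_congr rfl (fun s _ => Finset.sum_congr rfl (fun e _ => ?_))
    rw [itn_pin hu]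
  rw [hfin]
  have h2 := hj t
  have h3 := hV t
  have h4 := itn_mi hu h1 t
  linarith

theorem wsumE {S : Finset X → Prop} {ex : Finset X → ℝ} {B Φ c κ : ℝ}
    (hSu : ∀ a b, S a → S b → S (a ∪ b)) (hD : ∀ p, Law S p → 0 ≤ De ex p)
    (hB : 0 ≤ B) (hΦ : 0 ≤ Φ) (hc : 0 ≤ c) (hκ : 0 ≤ κ)
    (hη : 2 * B * ((c + 1) * Φ + κ) ≤ Φ / 5) (hη1 : 2 * B * (c + 1) ≤ 1 / 5)
    (hpair : PairE S ex B Φ) (hunion : UnionE S ex B Φ c κ)
    {u : σ × Finset X → ℝ} (hu : ∀ x, 0 ≤ u x)
    (h1 : ∑ x, u x = 1) (hs : ∀ x, u x ≠ 0 → S x.2) :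
    ∑ s, ∑ e, pin u s e * psi (pin u s e / mass u Prod.fst s)
      ≤ 75 * (Φ + mi u + 2 * B * De ex (mass u Prod.snd)) := by
  set V := Φ + mi u + 2 * B * De ex (mass u Prod.snd) with hV
  have hV0 : 0 ≤ V := by
    have a1 := mi_nonneg hu h1
    have a2 := hD _ ⟨mass_nonneg hu Prod.snd, by rw [sum_mass, h1], mass_snd_suppS hs⟩
    have a4 : 0 ≤ 2 * B * De ex (mass u Prod.snd) := by positivity
    linarith
  have hng : ∀ t : ℕ, ∑ s, ∑ e, mass u Prod.fst s
      * (1 - (pout u s e / mass u Prod.fst s) ^ (2 ^ t)) ^ 2 ≤ (11 / 5) ^ t * V := by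
    intro t
    exact nogrowthE hSu hD hB hΦ hc hκ hη hη1 hpair hunion hu h1 hs t
  set T : ℕ := Finset.sup (univ : Finset (σ × X))
    (fun x => lv (pin u x.1 x.2 / mass u Prod.fst x.1)) with hT
  have hρ0 : ∀ s, 0 ≤ mass u Prod.fst s := mass_nonneg hu _
  have hpt : ∀ s e, pin u s e * psi (pin u s e / mass u Prod.fst s)
      ≤ 9 * ∑ t ∈ range (T + 1), (2 / 5) ^ t
        * (mass u Prod.fst s * (1 - (pout u s e / mass u Prod.fst s) ^ (2 ^ t)) ^ 2) := by
    intro s e
    have hterm : ∀ t ∈ range (T + 1), (0:ℝ) ≤ (2 / 5) ^ t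
        * (mass u Prod.fst s * (1 - (pout u s e / mass u Prod.fst s) ^ (2 ^ t)) ^ 2) := by
      intro t _
      exact mul_nonneg (by positivity) (mul_nonneg (hρ0 s) (sq_nonneg _))
    by_cases h0 : pin u s e = 0
    · rw [h0, zero_mul]
      exact mul_nonneg (by norm_num) (Finset.sum_nonneg hterm)
    have hpin : 0 < pin u s e := lt_of_le_of_ne (pin_nonneg hu s e) (Ne.symm h0)
    have hadd := pin_add_pout u s e
    have hpo := pout_nonneg hu s e
    have hρ : 0 < mass u Prod.fst s := by linarith
    set x := pin u s e / mass u Prod.fst s with hx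
    have hx0 : 0 < x := div_pos hpin hρ
    have hx1 : x ≤ 1 := by
      rw [hx, div_le_one hρ]; linarith
    have hpx : pin u s e = mass u Prod.fst s * x := by
      rw [hx]; field_simp
    have hpox : pout u s e / mass u Prod.fst s = 1 - x := by
      rw [hx]; field_simp; linarith
    have hlt : lv x ∈ range (T + 1) := by
      rw [Finset.mem_range, Nat.lt_succ_iff]
      exact Finset.le_sup (f := fun y : σ × X => lv (pin u y.1 y.2 / mass u Prod.fst y.1))
        (Finset.mem_univ (s, e))
    have hsingle := Finset.single_le_sum hterm hlt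
    have hlev := level_sq hx0 hx1
    have hle : x ≤ (1 / 2) ^ (lv x) := (lv_spec hx0 hx1).2
    rw [hpox] at hsingle
    have h2 : x * psi x ≤ (2 / 5) ^ (lv x) := by
      unfold psi
      have : (2 / 5 : ℝ) ^ (lv x) = (1 / 2) ^ (lv x) * (4 / 5) ^ (lv x) := by
        rw [← mul_pow]; norm_num
      rw [this]
      exact mul_le_mul_of_nonneg_right hle (by positivity)
    calc pin u s e * psi x = mass u Prod.fst s * (x * psi x) := by rw [hpx]; ring
      _ ≤ mass u Prod.fst s * (2 / 5) ^ (lv x) := mul_le_mul_of_nonneg_left h2 hρ.le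
      _ ≤ mass u Prod.fst s * (2 / 5) ^ (lv x) * (9 * (1 - (1 - x) ^ (2 ^ (lv x))) ^ 2) := by
          have : (0:ℝ) ≤ mass u Prod.fst s * (2 / 5) ^ (lv x) := by positivity
          exact le_mul_of_one_le_right this hlev
      _ = 9 * ((2 / 5) ^ (lv x)
        * (mass u Prod.fst s * (1 - (1 - x) ^ (2 ^ (lv x))) ^ 2)) := by ring
      _ ≤ _ := by
          have := mul_le_mul_of_nonneg_left hsingle (show (0:ℝ) ≤ 9 by norm_num)
          simpa [hpox] using this
  calc ∑ s, ∑ e, pin u s e * psi (pin u s e / mass u Prod.fst s)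
      ≤ ∑ s, ∑ e, 9 * ∑ t ∈ range (T + 1), (2 / 5) ^ t
        * (mass u Prod.fst s * (1 - (pout u s e / mass u Prod.fst s) ^ (2 ^ t)) ^ 2) :=
        Finset.sum_le_sum (fun s _ => Finset.sum_le_sum (fun e _ => hpt s e))
    _ = 9 * ∑ t ∈ range (T + 1), (2 / 5) ^ t * (∑ s, ∑ e,
        mass u Prod.fst s * (1 - (pout u s e / mass u Prod.fst s) ^ (2 ^ t)) ^ 2) := by
        simp_rw [← Finset.mul_sum]
        congr 1
        simp_rw [Finset.mul_sum]
        rw [Finset.sum_comm]
        rw [Finset.sum_comm]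
        have e1 : ∀ s : σ, ∑ e : X, ∑ t ∈ range (T + 1), (2 / 5 : ℝ) ^ t
            * (mass u Prod.fst s * (1 - (pout u s e / mass u Prod.fst s) ^ (2 ^ t)) ^ 2)
            = ∑ t ∈ range (T + 1), ∑ e : X, (2 / 5 : ℝ) ^ t
            * (mass u Prod.fst s * (1 - (pout u s e / mass u Prod.fst s) ^ (2 ^ t)) ^ 2) := by
          intro s
          rw [Finset.sum_comm]
        simp_rw [e1]
        rw [Finset.sum_comm]
    _ ≤ 9 * ∑ t ∈ range (T + 1), (2 / 5) ^ t * ((11 / 5) ^ t * V) := by
        refine mul_le_mul_of_nonneg_left (Finset.sum_le_sum (fun t _ => ?_)) (by norm_num)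
        exact mul_le_mul_of_nonneg_left (hng t) (by positivity)
    _ = 9 * ((∑ t ∈ range (T + 1), (22 / 25 : ℝ) ^ t) * V) := by
        congr 1
        rw [Finset.sum_mul]
        refine Finset.sum_congr rfl (fun t _ => ?_)
        rw [← mul_assoc, ← mul_pow]
        norm_num
    _ ≤ 9 * ((25 / 3) * V) := by
        refine mul_le_mul_of_nonneg_left (mul_le_mul_of_nonneg_right ?_ hV0) (by norm_num)
        rw [geom_sum_eq (by norm_num)]
        have : (0:ℝ) ≤ (22 / 25) ^ (T + 1) := by positivity
        rw [div_le_iff_of_neg (by norm_num)]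
        linarith
    _ = 75 * V := by ring

end Gen

theorem growthE {S : Finset X → Prop} {ex : Finset X → ℝ} {B Φ c κ : ℝ}
    (hSu : ∀ a b, S a → S b → S (a ∪ b)) (hD : ∀ p, Law S p → 0 ≤ De ex p)
    (hB : 0 ≤ B) (hΦ : 0 ≤ Φ) (hc : 0 ≤ c) (hκ : 0 ≤ κ)
    (hη : 2 * B * ((c + 1) * Φ + κ) ≤ Φ / 5) (hη1 : 2 * B * (c + 1) ≤ 1 / 5)
    (hpair : PairE S ex B Φ) (hunion : UnionE S ex B Φ c κ)
    {r : Finset X × Finset X → ℝ} (hr : ∀ x, 0 ≤ r x)
    (h1 : ∑ x, r x = 1) (hs : ∀ x, r x ≠ 0 → x.2 ⊆ x.1 ∧ S x.1)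
    {α : ℝ} (hα : 0 < α) (hα1 : α ≤ 1) :
    Hf r - Hf (mass r Prod.fst)
      ≤ 2 * ((∑ x, r x * (x.2.card : ℝ)) * log (1 / α)
          + α * (75 * (Φ + mi r + 2 * B * De ex (mass r Prod.fst)))) + (2 / 3) * mi r := by
  set hh : Finset X → ℝ := fun R => ent r (fun x => (x.2 ∩ R, x.1)) with hhh
  set gg : Finset X → ℝ := fun R => ent r (fun x => x.2 ∩ R) with hgg
  set I : Finset X → ℝ := fun R => gg R + ent r Prod.fst - hh R with hI
  set W := 75 * (Φ + mi r + 2 * B * De ex (mass r Prod.fst)) with hW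
  set j := ∑ x, r x * (x.2.card : ℝ) with hj
  have hj0 : 0 ≤ j := Finset.sum_nonneg (fun x _ => mul_nonneg (hr x) (Nat.cast_nonneg _))
  have hmi0 : 0 ≤ mi r := mi_nonneg hr h1
  have hD0 : 0 ≤ De ex (mass r Prod.fst) := by
    exact hD _ ⟨mass_nonneg hr _, by rw [sum_mass, h1], mass_fst_suppS (fun x hx => (hs x hx).2)⟩
  have hlα : 0 ≤ log (1 / α) := Real.log_nonneg (by rw [le_div_iff₀ hα]; linarith)
  -- identification of mutual informations
  have hIR : ∀ R, mi (mass r (fun x => (x.2 ∩ R, x.1))) = I R := by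
    intro R
    rw [mi_mass]
  have hfst0 : ent r Prod.fst = Hf (mass r Prod.fst) := rfl
  have hhu : hh univ = Hf r := by
    simp only [hhh]
    rw [Hf_eq_ent]
    refine ent_congr (fun a b => ?_)
    simp only [Finset.inter_univ, Prod.mk.injEq]
    constructor
    · intro h; exact Prod.ext h.2 h.1
    · intro h; rw [h]; exact ⟨rfl, rfl⟩
  have hgu : gg univ = Hf (mass r Prod.snd) := by
    simp only [hgg, Finset.inter_univ]
    rfl
  have hIu : I univ = mi r := by
    simp only [hI]
    rw [hhu, hgu, hfst0]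
    unfold mi
    ring
  have hImono : ∀ R, I R ≤ I univ := by
    intro R
    have h := cent_anti hr Prod.fst (fun x : Finset X × Finset X => x.2) (fun s => s ∩ R)
    unfold cent at h
    have a1 : ent r (fun ω : Finset X × Finset X => (ω.1, ω.2)) = hh univ := by
      simp only [hhh]
      refine ent_congr (fun a b => ?_)
      simp only [Finset.inter_univ, Prod.mk.injEq]
      exact and_comm
    have a2 : ent r (fun ω : Finset X × Finset X => (ω.1, ω.2 ∩ R)) = hh R := by
      simp only [hhh]
      refine ent_congr (fun a b => ?_)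
      simp only [Prod.mk.injEq]
      exact and_comm
    have a3 : ent r (fun x : Finset X × Finset X => x.2) = gg univ := by
      simp only [hgg, Finset.inter_univ]
    rw [a1, a2, a3] at h
    simp only [hI]
    have a4 : ent r (fun ω : Finset X × Finset X => ω.2 ∩ R) = gg R := rfl
    rw [a4] at h
    linarith
  have hI0 : I ∅ = 0 := by
    have h2 : hh ∅ = ent r Prod.fst := by
      simp only [hhh]
      refine ent_congr (fun a b => ?_)
      simp
    have h3 : gg ∅ = 0 := by
      simp only [hgg, Finset.inter_empty]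
      unfold ent mass
      rw [Finset.sum_eq_single (∅ : Finset X)]
      · simp [h1]
      · intro b _ hb
        simp [hb.symm]
      · intro h; exact absurd (Finset.mem_univ _) h
    simp only [hI]
    rw [h2, h3]; ring
  -- the step inequality
  have hK0 : 0 ≤ j * log (1 / α) + α * W := by
    have : 0 ≤ W := by
      have a2 : 0 ≤ 2 * B * De ex (mass r Prod.fst) := by positivity
      simp only [hW]
      linarith
    positivity
  have hstep : ∀ R : Finset X, ∑ e ∈ Rᶜ, ((hh (insert e R) - (1 / 3) * I (insert e R))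
      - (hh R - (1 / 3) * I R)) ≤ j * log (1 / α) + α * W := by
    intro R
    have hw1 : ∑ s, ∑ e, mass (rst r Prod.fst e) (fun x => x.2 ∩ R) s
        * psi (mass (rst r Prod.fst e) (fun x => x.2 ∩ R) s / mass r (fun x => x.2 ∩ R) s) ≤ W := by
      set u := mass r (fun x : Finset X × Finset X => (x.2 ∩ R, x.1)) with hu
      have hu0 : ∀ x, 0 ≤ u x := mass_nonneg hr _
      have hus : ∀ x, u x ≠ 0 → S x.2 := by
        intro x hx
        by_contra hcon
        apply hx
        simp only [hu]
        unfold mass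
        refine Finset.sum_eq_zero (fun y _ => ?_)
        by_cases hy : (y.2 ∩ R, y.1) = x
        · rw [if_pos hy]
          by_contra h
          apply hcon
          rw [← hy]
          exact (hs _ h).2
        · rw [if_neg hy]
      have h := wsumE hSu hD hB hΦ hc hκ hη hη1 hpair hunion hu0 (by rw [hu, sum_mass, h1]) hus
      have b1 : mass u Prod.fst = mass r (fun x => x.2 ∩ R) := by
        funext s; rw [hu, mass_comp]
      have b2 : mass u Prod.snd = mass r Prod.fst := by
        funext s; rw [hu, mass_comp]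
      have b3 : ∀ s e, pin u s e = mass (rst r Prod.fst e) (fun x => x.2 ∩ R) s := by
        intro s e
        rw [hu]
        exact pin_mass r (fun x => x.2 ∩ R) Prod.fst s e
      have b4 : mi u = I R := hIR R
      simp_rw [b3] at h
      rw [b1, b2, b4] at h
      refine h.trans ?_
      simp only [hW]
      have b5 := hImono R
      rw [hIu] at b5
      linarith
    have hj1 : ∑ e ∈ Rᶜ, ∑ x, rst r Prod.snd e x ≤ j := by
      have c1 : ∑ e ∈ Rᶜ, ∑ x, rst r Prod.snd e x ≤ ∑ e, ∑ x, rst r Prod.snd e x :=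
        Finset.sum_le_sum_of_subset_of_nonneg (Finset.subset_univ _)
          (fun e _ _ => Finset.sum_nonneg (fun x _ => rst_nonneg hr _ _ _))
      refine c1.trans (le_of_eq ?_)
      rw [Finset.sum_comm, hj]
      refine Finset.sum_congr rfl (fun x _ => ?_)
      unfold rst
      rw [← Finset.sum_filter, Finset.sum_const, nsmul_eq_mul, mul_comm]
      congr 2
      rw [Finset.filter_mem_eq_inter, Finset.univ_inter]
    have hstep1 : ∀ e ∈ Rᶜ, (hh (insert e R) - (1 / 3) * I (insert e R)) - (hh R - (1 / 3) * I R)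
        ≤ (∑ x, rst r Prod.snd e x) * log (1 / α)
          + α * ∑ s, mass (rst r Prod.fst e) (fun x => x.2 ∩ R) s
        * psi (mass (rst r Prod.fst e) (fun x => x.2 ∩ R) s / mass r (fun x => x.2 ∩ R) s) := by
      intro e he
      rw [Finset.mem_compl] at he
      have h := stepC hr (fun x : Finset X × Finset X => x.2 ∩ R) Prod.fst Prod.snd
        (fun x hx => (hs x hx).1) e hα
      have d1 : cent r (fun x : Finset X × Finset X => decide (e ∈ x.2))
          (fun x => (x.2 ∩ R, x.1)) = hh (insert e R) - hh R := by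
        unfold cent
        simp only [hhh]
        congr 1
        refine ent_congr (fun a b => ?_)
        simp only [Prod.mk.injEq]
        constructor
        · rintro ⟨p1, p2, p3⟩
          refine ⟨?_, p3⟩
          ext x
          have p2' := Finset.ext_iff.mp p2 x
          simp only [Finset.mem_inter, Finset.mem_insert] at p2' ⊢
          have p1' : (e ∈ b.2) ↔ (e ∈ a.2) := by simpa using p1
          by_cases hx : x = e
          · subst hx
            simp only [true_or, and_true]
            exact p1'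
          · simp only [hx, false_or]
            exact p2'
        · rintro ⟨p1, p2⟩
          have p1' := Finset.ext_iff.mp p1
          simp only [Finset.mem_inter, Finset.mem_insert] at p1'
          refine ⟨?_, ?_, p2⟩
          · have := p1' e
            simp only [true_or, and_true] at this
            simp [this]
          · ext x
            have := p1' x
            simp only [Finset.mem_inter]
            constructor
            · rintro ⟨q1, q2⟩
              exact ⟨(this.mp ⟨q1, Or.inr q2⟩).1, q2⟩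
            · rintro ⟨q1, q2⟩
              exact ⟨(this.mpr ⟨q1, Or.inr q2⟩).1, q2⟩
      have d2 : cent r (fun x : Finset X × Finset X => decide (e ∈ x.2))
          (fun x => x.2 ∩ R) = gg (insert e R) - gg R := by
        unfold cent
        simp only [hgg]
        congr 1
        refine ent_congr (fun a b => ?_)
        simp only [Prod.mk.injEq]
        constructor
        · rintro ⟨p1, p2⟩
          ext x
          have p2' := Finset.ext_iff.mp p2 x
          simp only [Finset.mem_inter, Finset.mem_insert] at p2' ⊢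
          have p1' : (e ∈ b.2) ↔ (e ∈ a.2) := by simpa using p1
          by_cases hx : x = e
          · subst hx
            simp only [true_or, and_true]
            exact p1'
          · simp only [hx, false_or]
            exact p2'
        · intro p1
          have p1' := Finset.ext_iff.mp p1
          simp only [Finset.mem_inter, Finset.mem_insert] at p1'
          refine ⟨?_, ?_⟩
          · have := p1' e
            simp only [true_or, and_true] at this
            simp [this]
          · ext x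
            have := p1' x
            simp only [Finset.mem_inter]
            constructor
            · rintro ⟨q1, q2⟩
              exact ⟨(this.mp ⟨q1, Or.inr q2⟩).1, q2⟩
            · rintro ⟨q1, q2⟩
              exact ⟨(this.mpr ⟨q1, Or.inr q2⟩).1, q2⟩
      rw [d1, d2] at h
      simp only [hI]
      linarith
    refine (Finset.sum_le_sum hstep1).trans ?_
    rw [Finset.sum_add_distrib, ← Finset.sum_mul, ← Finset.mul_sum]
    refine add_le_add (mul_le_mul_of_nonneg_right hj1 hlα)
      (mul_le_mul_of_nonneg_left ?_ hα.le)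
    refine le_trans ?_ hw1
    rw [Finset.sum_comm (s := univ) (t := univ)]
    refine Finset.sum_le_sum_of_subset_of_nonneg (Finset.subset_univ _) (fun e _ _ => ?_)
    exact Finset.sum_nonneg (fun s _ => mul_nonneg (mass_nonneg (rst_nonneg hr _ _) _ _)
      (psi_pos _).le)
  have hfin := half_trick (fun R => hh R - ent r Prod.fst) (fun R => hh R - (1 / 3) * I R)
    (c := (1 / 3) * mi r) hK0 hstep ?_ ?_
  · rw [hhu, hfst0] at hfin
    linarith
  · intro R
    have h2 : hh ∅ = ent r Prod.fst := by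
      simp only [hhh]
      refine ent_congr (fun a b => ?_)
      simp
    have h3 := hImono R
    rw [hIu] at h3
    rw [hI0, h2]
    linarith
  · intro R
    have h := ent_submod hr (fun x : Finset X × Finset X => x.2 ∩ R) (fun x => x.2 ∩ Rᶜ) Prod.fst
    have h2 : ent r (fun x : Finset X × Finset X => (x.2 ∩ R, x.2 ∩ Rᶜ, x.1)) = hh univ := by
      simp only [hhh]
      refine ent_congr (fun a b => ?_)
      simp only [Finset.inter_univ, Prod.mk.injEq]
      constructor
      · rintro ⟨p1, p2, p3⟩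
        refine ⟨?_, p3⟩
        ext x
        have q1 := Finset.ext_iff.mp p1 x
        have q2 := Finset.ext_iff.mp p2 x
        simp only [Finset.mem_inter, Finset.mem_compl] at q1 q2
        by_cases hx : x ∈ R
        · simpa [hx] using q1
        · simpa [hx] using q2
      · rintro ⟨p1, p2⟩
        rw [p1, p2]
        exact ⟨rfl, rfl, rfl⟩
    rw [h2] at h
    show hh univ - ent r Prod.fst ≤ (hh R - ent r Prod.fst) + (hh Rᶜ - ent r Prod.fst)
    have h3 : ent r (fun x : Finset X × Finset X => (x.2 ∩ R, x.1)) = hh R := rfl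
    have h4 : ent r (fun x : Finset X × Finset X => (x.2 ∩ Rᶜ, x.1)) = hh Rᶜ := rfl
    rw [h3, h4] at h
    linarith

end Vale.Agent.Tal
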