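import Vale.Agent.Tal.Defs

namespace Vale.Agent.Tal

open Finset Real Vale.Agent.P064

set_option linter.unusedSectionVars false

variable {X : Type} [Fintype X] [DecidableEq X]

lemma wt_pos (m : Finset X → ℝ) (lam τ : ℝ) (J : Finset X) : 0 < wt m lam τ J := exp_pos _

lemma Zp_pos (m : Finset X → ℝ) (lam τ : ℝ) (C : Finset X) : 0 < Zp m lam τ C :=
  Finset.sum_pos (fun J _ => wt_pos m lam τ J) ⟨∅, Finset.empty_mem_powerset C⟩

lemma kerT_nonneg (m : Finset X → ℝ) (lam τ : ℝ) (C J : Finset X) : 0 ≤ kerT m lam τ C J := by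
  unfold kerT
  split_ifs
  · exact (div_pos (wt_pos _ _ _ _) (Zp_pos _ _ _ _)).le
  · exact le_rfl

lemma kerT_pos (m : Finset X → ℝ) (lam τ : ℝ) {C J : Finset X} (h : J ⊆ C) :
    0 < kerT m lam τ C J := by
  unfold kerT
  rw [if_pos h]
  exact div_pos (wt_pos _ _ _ _) (Zp_pos _ _ _ _)

lemma log_kerT (m : Finset X → ℝ) (lam τ : ℝ) {C J : Finset X} (h : J ⊆ C) :
    log (kerT m lam τ C J) = lam * log (m J) + τ * (J.card : ℝ) - log (Zp m lam τ C) := by
  unfold kerT
  rw [if_pos h, Real.log_div (wt_pos _ _ _ _).ne' (Zp_pos _ _ _ _).ne']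
  unfold wt
  rw [Real.log_exp]

lemma sum_kerT (m : Finset X → ℝ) (lam τ : ℝ) (C : Finset X) : ∑ J, kerT m lam τ C J = 1 := by
  unfold kerT
  rw [← Finset.sum_filter]
  have h : univ.filter (fun J => J ⊆ C) = C.powerset := by
    ext J; simp
  rw [h, ← Finset.sum_div]
  exact div_self (Zp_pos _ _ _ _).ne'

lemma Rm_pos {m : Finset X → ℝ} (hm : ∀ z, 0 < m z) (lam τ : ℝ) (J : Finset X) :
    0 < Rm m lam τ J := by
  unfold Rm
  refine Finset.sum_pos' (fun C _ => mul_nonneg (hm C).le (kerT_nonneg _ _ _ _ _))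
    ⟨J, Finset.mem_univ _, mul_pos (hm J) (kerT_pos _ _ _ (Finset.Subset.refl _))⟩

lemma M2_pos {m : Finset X → ℝ} (hm : ∀ z, 0 < m z) (lam τ : ℝ) (x : Finset X × Finset X) :
    0 < M2 m lam τ x := by
  unfold M2
  have h1 : iP x ⊆ x.1 := Finset.inter_subset_left
  have h2 : iP x ⊆ x.2 := Finset.inter_subset_right
  exact div_pos (mul_pos (mul_pos (hm _) (kerT_pos _ _ _ h1))
    (mul_pos (hm _) (kerT_pos _ _ _ h2))) (Rm_pos hm _ _ _)

lemma card_uP (x : Finset X × Finset X) :
    ((uP x).card : ℝ) = (x.1.card : ℝ) + (x.2.card : ℝ) - ((iP x).card : ℝ) := by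
  have : ((uP x).card : ℝ) + ((iP x).card : ℝ) = (x.1.card : ℝ) + (x.2.card : ℝ) := by
    exact_mod_cast Finset.card_union_add_card_inter x.1 x.2
  linarith

lemma log12_le : log 12 ≤ 5 / 2 := by
  rw [Real.log_le_iff_le_exp (by norm_num)]
  have h1 : (2.7182818283 : ℝ) < exp 1 := Real.exp_one_gt_d9
  have h2 : exp (5 / 2) ^ 2 = exp 1 ^ 5 := by
    rw [← Real.exp_nat_mul, ← Real.exp_nat_mul]
    norm_num
  have h3 : (144 : ℝ) ≤ exp 1 ^ 5 := by
    calc (144 : ℝ) ≤ 2.7182818283 ^ 5 := by norm_num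
      _ ≤ exp 1 ^ 5 := pow_le_pow_left₀ (by norm_num) h1.le _
  rw [← h2] at h3
  have h4 : 0 < exp (5 / 2) := exp_pos _
  nlinarith

theorem node_closed {m : Finset X → ℝ} (hm : ∀ z, 0 < m z) {lam τ : ℝ}
    (hcl : ClosedK m lam τ) (l : ℝ) {P : Finset X × Finset X → ℝ} (hP : ∀ x, 0 ≤ P x)
    (h1 : ∑ x, P x = 1) :
    De (exf m l) (mass P uP) ≤ De (exf m l) (mass P Prod.fst) + De (exf m l) (mass P Prod.snd)
      + mi P - (1 - 2 * lam) * (∑ x, P x * exf m l (iP x))
      + 2 * (lam * l - τ) * (∑ x, P x * ((iP x).card : ℝ))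
      + ∑ x, P x * log (Zp m lam τ x.1) + ∑ x, P x * log (Zp m lam τ x.2) + 4 := by
  classical
  have hM0 : ∀ x, 0 < M2 m lam τ x := M2_pos hm lam τ
  have hMle : ∀ x, M2 m lam τ x ≤ mass (M2 m lam τ) uP (uP x) :=
    fun x => le_mass (fun y => (hM0 y).le) uP x
  have hg := gibbsC hP (fun x => x) uP
    (fun U x => (if uP x = U then M2 m lam τ x else 0) / mass (M2 m lam τ) uP U) ?_ ?_ ?_
  rotate_left
  · intro U x
    exact div_nonneg (by split_ifs; exacts [(hM0 x).le, le_rfl])
      (mass_nonneg (fun y => (hM0 y).le) _ _)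
  · intro U
    show ∑ x, (if uP x = U then M2 m lam τ x else 0) / mass (M2 m lam τ) uP U ≤ 1
    rw [← Finset.sum_div]
    exact div_self_le_one _
  · intro x _
    simp only [if_true]
    exact div_pos (hM0 x) (lt_of_lt_of_le (hM0 x) (hMle x))
  have e1 : cent P (fun x => x) uP = Hf P - Hf (mass P uP) := by
    unfold cent
    rw [Hf_eq_ent, ← ent_eq_Hf]
    congr 1
    exact ent_congr (by
      intro a b
      simp only [Prod.mk.injEq]
      exact ⟨fun h => h.1, fun h => ⟨h, by rw [h]⟩⟩)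
  rw [e1] at hg
  -- pointwise
  have hpt : ∀ x, -(P x * log ((if uP x = uP x then M2 m lam τ x else 0)
        / mass (M2 m lam τ) uP (uP x)))
      ≤ P x * exf m l x.1 + P x * exf m l x.2 - P x * exf m l (uP x)
        - (1 - 2 * lam) * (P x * exf m l (iP x))
        + 2 * (lam * l - τ) * (P x * ((iP x).card : ℝ))
        + P x * log (Zp m lam τ x.1) + P x * log (Zp m lam τ x.2) + 2 * log 12 * P x := by
    intro x
    simp only [if_true]
    have hi1 : iP x ⊆ x.1 := Finset.inter_subset_left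
    have hi2 : iP x ⊆ x.2 := Finset.inter_subset_right
    have hk1 := kerT_pos m lam τ hi1
    have hk2 := kerT_pos m lam τ hi2
    have hR := Rm_pos hm lam τ (iP x)
    have hmass : 0 < mass (M2 m lam τ) uP (uP x) := lt_of_lt_of_le (hM0 x) (hMle x)
    have a1 : log (mass (M2 m lam τ) uP (uP x)) ≤ log 12 + log (m (uP x)) := by
      rw [← Real.log_mul (by norm_num) (hm _).ne']
      exact Real.log_le_log hmass (hcl.2 _)
    have a2 : log (Rm m lam τ (iP x)) ≤ log 12 + log (m (iP x)) := by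
      rw [← Real.log_mul (by norm_num) (hm _).ne']
      exact Real.log_le_log hR (hcl.1 _)
    have a3 : log (M2 m lam τ x) = log (m x.1) + log (kerT m lam τ x.1 (iP x))
        + (log (m x.2) + log (kerT m lam τ x.2 (iP x))) - log (Rm m lam τ (iP x)) := by
      unfold M2
      rw [Real.log_div (by have := hm x.1; have := hm x.2; positivity) hR.ne',
        Real.log_mul (by have := hm x.1; positivity) (by have := hm x.2; positivity),
        Real.log_mul (hm _).ne' hk1.ne', Real.log_mul (hm _).ne' hk2.ne']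
    rw [log_kerT m lam τ hi1, log_kerT m lam τ hi2] at a3
    rw [Real.log_div (hM0 x).ne' hmass.ne', a3]
    have hc := card_uP x
    have key : -(log (m x.1) + (lam * log (m (iP x)) + τ * ((iP x).card : ℝ)
          - log (Zp m lam τ x.1))
        + (log (m x.2) + (lam * log (m (iP x)) + τ * ((iP x).card : ℝ)
          - log (Zp m lam τ x.2))) - log (Rm m lam τ (iP x))
        - log (mass (M2 m lam τ) uP (uP x)))
      ≤ exf m l x.1 + exf m l x.2 - exf m l (uP x)
        - (1 - 2 * lam) * exf m l (iP x)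
        + 2 * (lam * l - τ) * ((iP x).card : ℝ)
        + log (Zp m lam τ x.1) + log (Zp m lam τ x.2) + 2 * log 12 := by
      unfold exf
      rw [hc]
      have e : -log (m x.1) - l * (x.1.card : ℝ) + (-log (m x.2) - l * (x.2.card : ℝ))
          - (-log (m (uP x)) - l * ((x.1.card : ℝ) + (x.2.card : ℝ) - ((iP x).card : ℝ)))
          - (1 - 2 * lam) * (-log (m (iP x)) - l * ((iP x).card : ℝ))
          + 2 * (lam * l - τ) * ((iP x).card : ℝ)
          + log (Zp m lam τ x.1) + log (Zp m lam τ x.2) + 2 * log 12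
          = -(log (m x.1) + (lam * log (m (iP x)) + τ * ((iP x).card : ℝ)
          - log (Zp m lam τ x.1))
        + (log (m x.2) + (lam * log (m (iP x)) + τ * ((iP x).card : ℝ)
          - log (Zp m lam τ x.2)))) + (log 12 + log (m (iP x))) + (log 12 + log (m (uP x))) := by
        ring
      rw [e]
      linarith
    have := mul_le_mul_of_nonneg_left key (hP x)
    nlinarith [this]
  have hsum := Finset.sum_le_sum (s := univ) (fun x _ => hpt x)
  rw [Finset.sum_neg_distrib] at hsum
  have hsum2 : ∑ x, (P x * exf m l x.1 + P x * exf m l x.2 - P x * exf m l (uP x)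
        - (1 - 2 * lam) * (P x * exf m l (iP x))
        + 2 * (lam * l - τ) * (P x * ((iP x).card : ℝ))
        + P x * log (Zp m lam τ x.1) + P x * log (Zp m lam τ x.2) + 2 * log 12 * P x)
      = ∑ x, P x * exf m l x.1 + ∑ x, P x * exf m l x.2 - ∑ x, P x * exf m l (uP x)
        - (1 - 2 * lam) * ∑ x, P x * exf m l (iP x)
        + 2 * (lam * l - τ) * ∑ x, P x * ((iP x).card : ℝ)
        + ∑ x, P x * log (Zp m lam τ x.1) + ∑ x, P x * log (Zp m lam τ x.2)
        + 2 * log 12 := by
    rw [Finset.sum_add_distrib, Finset.sum_add_distrib, Finset.sum_add_distrib,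
      Finset.sum_add_distrib, Finset.sum_sub_distrib, Finset.sum_sub_distrib,
      Finset.sum_add_distrib, ← Finset.mul_sum, ← Finset.mul_sum, ← Finset.mul_sum, h1, mul_one]
  rw [hsum2] at hsum
  have hfin := hg.trans hsum
  have h12 := log12_le
  unfold De mi
  rw [sum_mass_mul P uP (exf m l), sum_mass_mul P Prod.fst (exf m l),
    sum_mass_mul P Prod.snd (exf m l)]
  linarith

end Vale.Agent.Tal
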