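import Vale.Agent.Tal.PartE

namespace Vale.Agent.Tal

open Finset Real Vale.Agent.P064

set_option linter.unusedSectionVars false

variable {X : Type} [Fintype X] [DecidableEq X]

theorem SS_union {H : Finset X} {s : ℝ} : ∀ a b, SS H s a → SS H s b → SS H s (a ∪ b) := by
  intro a b ha hb
  refine ⟨Finset.union_subset ha.1 hb.1, ha.2.trans ?_⟩
  exact_mod_cast Finset.card_le_card Finset.subset_union_left

/-- Gibbs inequality: entropy is at most the expected excess plus the log of the weight sum. -/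
lemma gibbs_fin {α : Type} [Fintype α] [DecidableEq α] {p : α → ℝ} (hp : ∀ z, 0 ≤ p z)
    (h1 : ∑ z, p z = 1) (T : Finset α) (hT : ∀ z, p z ≠ 0 → z ∈ T) (f : α → ℝ) {W : ℝ}
    (hW : ∑ z ∈ T, exp (-f z) ≤ W) (hW0 : 0 < W) :
    Hf p ≤ ∑ z, p z * f z + log W := by
  have key : ∑ z, p z * (-log (p z) - f z - log W) ≤ ∑ z, ((if z ∈ T then exp (-f z) / W else 0)
      - p z) := by
    refine Finset.sum_le_sum (fun z _ => ?_)
    by_cases h0 : p z = 0
    · rw [h0]
      simp only [zero_mul, sub_zero]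
      split_ifs
      · positivity
      · exact le_rfl
    · have hpz : 0 < p z := lt_of_le_of_ne (hp z) (Ne.symm h0)
      rw [if_pos (hT z h0)]
      have e : -log (p z) - f z - log W = log (exp (-f z) / W / p z) := by
        rw [Real.log_div (by positivity) hpz.ne', Real.log_div (by positivity) hW0.ne',
          Real.log_exp]
        ring
      rw [e]
      have h2 := Real.log_le_sub_one_of_pos (show 0 < exp (-f z) / W / p z by positivity)
      have h3 := mul_le_mul_of_nonneg_left h2 (hp z)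
      refine h3.trans (le_of_eq ?_)
      field_simp
  rw [Finset.sum_sub_distrib, h1, ← Finset.sum_filter] at key
  have h2 : ∑ z ∈ univ.filter (fun z => z ∈ T), exp (-f z) / W ≤ 1 := by
    have : univ.filter (fun z => z ∈ T) = T := by ext; simp
    rw [this, ← Finset.sum_div, div_le_one hW0]
    exact hW
  have h3 : ∑ z, p z * (-log (p z) - f z - log W)
      = Hf p - ∑ z, p z * f z - log W := by
    have e1 : ∑ z, p z * (-log (p z) - f z - log W)
        = ∑ z, (negMulLog (p z) - p z * f z - p z * log W) := by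
      refine Finset.sum_congr rfl (fun z _ => ?_)
      unfold negMulLog
      ring
    rw [e1, Finset.sum_sub_distrib, Finset.sum_sub_distrib, ← Finset.sum_mul, h1, one_mul]
    rfl
  rw [h3] at key
  linarith

lemma exp_neg_exf {m : Finset X → ℝ} (hm : ∀ z, 0 < m z) (l : ℝ) (z : Finset X) :
    exp (-exf m l z) = m z * exp (l * (z.card : ℝ)) := by
  unfold exf
  rw [neg_sub, sub_neg_eq_add, Real.exp_add, Real.exp_log (hm z)]
  ring

lemma log_nine_four : log (9 / 4) ≤ 1 := by
  rw [Real.log_le_iff_le_exp (by norm_num)]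
  have h1 : (2.7182818283 : ℝ) < exp 1 := Real.exp_one_gt_d9
  linarith

lemma log_thirteen_four : log (13 / 4) ≤ 6 / 5 := by
  rw [Real.log_le_iff_le_exp (by norm_num)]
  have h1 : (2.7182818283 : ℝ) < exp 1 := Real.exp_one_gt_d9
  have h2 : exp (6 / 5) ^ 5 = exp 1 ^ 6 := by
    rw [← Real.exp_nat_mul, ← Real.exp_nat_mul]
    norm_num
  have h3 : ((13 : ℝ) / 4) ^ 5 ≤ exp 1 ^ 6 := by
    calc ((13 : ℝ) / 4) ^ 5 ≤ 2.7182818283 ^ 6 := by norm_num
      _ ≤ exp 1 ^ 6 := pow_le_pow_left₀ (by norm_num) h1.le _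
  rw [← h2] at h3
  exact le_of_pow_le_pow_left₀ (by norm_num) (exp_pos _).le h3

lemma m_le_one {m : Finset X → ℝ} (hm : ∀ z, 0 < m z) (h1 : ∑ z, m z = 1) (z : Finset X) :
    m z ≤ 1 := by
  rw [← h1]
  exact Finset.single_le_sum (fun y _ => (hm y).le) (Finset.mem_univ z)

theorem Good.De_nonneg {m : Finset X → ℝ} {l1 l s : ℝ} {H : Finset X} (h : Good m l1 l s H)
    (p : Finset X → ℝ) (hp : Law (SS H s) p) : 0 ≤ De (exf m l) p := by
  classical
  have hg := gibbs_fin hp.1 hp.2.1 (H.powerset.filter (fun z => s ≤ (z.card : ℝ)))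
    (fun z hz => by
      have := hp.2.2 z hz
      exact Finset.mem_filter.mpr ⟨Finset.mem_powerset.mpr this.1, this.2⟩)
    (exf m l) (W := 9 / 4) (by
      simp only [exp_neg_exf h.pos]
      have := h.up
      unfold fs at this
      convert this using 2) (by norm_num)
  have := log_nine_four
  unfold De
  linarith

theorem Good.ex_ge {m : Finset X → ℝ} {l1 l s : ℝ} {H : Finset X} (h : Good m l1 l s H)
    {z : Finset X} (hz : z ⊆ H) : 8000 * (z.card : ℝ) ≤ exf m l z := by
  unfold exf
  rcases z.eq_empty_or_nonempty with rfl | hne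
  · simp only [Finset.card_empty, Nat.cast_zero, mul_zero, sub_zero]
    have := Real.log_nonpos (h.pos ∅).le (m_le_one h.pos h.sum ∅)
    linarith
  · have h1 := h.inc z hz hne
    have h2 := Real.log_le_log (h.pos z) h1
    rw [Real.log_exp] at h2
    have hc : (0:ℝ) ≤ (z.card : ℝ) := Nat.cast_nonneg _
    have h3 := mul_le_mul_of_nonneg_right h.hl' hc
    nlinarith

lemma wt_eq (m : Finset X → ℝ) (lam τ l : ℝ) (J : Finset X) :
    wt m lam τ J = exp (-(lam * exf m l J) - (lam * l - τ) * (J.card : ℝ)) := by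
  unfold wt exf
  congr 1
  ring

lemma sum_pow_powerset' (c : Finset X) (r : ℝ) :
    ∑ j ∈ c.powerset, r ^ j.card = (1 + r) ^ c.card := by
  have := Finset.sum_pow_mul_eq_add_pow r 1 c
  simp only [one_pow, mul_one] at this
  rw [this, add_comm]

/-- crude bound for the partition function -/
theorem Good.logZ_le {m : Finset X → ℝ} {l1 l s : ℝ} {H : Finset X} (h : Good m l1 l s H)
    {lam τ : ℝ} (hlam : 9 / 20 ≤ lam) (hτ : τ ≤ lam * l) {C : Finset X} (hC : C ⊆ H) :
    log (Zp m lam τ C) ≤ (C.card : ℝ) / 1000 := by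
  have h1 : Zp m lam τ C ≤ ∑ J ∈ C.powerset, (1 / 1000 : ℝ) ^ J.card := by
    unfold Zp
    refine Finset.sum_le_sum (fun J hJ => ?_)
    rw [Finset.mem_powerset] at hJ
    rw [wt_eq m lam τ l J]
    have h2 := h.ex_ge (hJ.trans hC)
    have hc : (0:ℝ) ≤ (J.card : ℝ) := Nat.cast_nonneg _
    have h3 : 0 ≤ (lam * l - τ) * (J.card : ℝ) := mul_nonneg (by linarith) hc
    have h4 : (9 / 20 : ℝ) * (8000 * (J.card : ℝ)) ≤ lam * exf m l J :=
      mul_le_mul hlam h2 (by positivity) (by linarith)
    have h5 : exp (-(lam * exf m l J) - (lam * l - τ) * (J.card : ℝ))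
        ≤ exp ((J.card : ℝ) * (-3600)) := by
      apply Real.exp_le_exp.mpr
      linarith
    refine h5.trans ?_
    rw [Real.exp_nat_mul]
    refine pow_le_pow_left₀ (exp_pos _).le ?_ _
    have h6 : (1000:ℝ) ≤ exp 3600 := by
      have := Real.add_one_le_exp (3600:ℝ)
      linarith
    rw [Real.exp_neg, one_div]
    exact inv_anti₀ (by norm_num) h6
  rw [sum_pow_powerset'] at h1
  have h2 := Real.log_le_log (Zp_pos m lam τ C) h1
  rw [Real.log_pow] at h2
  refine h2.trans ?_
  have h3 := Real.log_le_sub_one_of_pos (show (0:ℝ) < 1 + 1 / 1000 by norm_num)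
  have hc : (0:ℝ) ≤ (C.card : ℝ) := Nat.cast_nonneg _
  have := mul_le_mul_of_nonneg_left h3 hc
  linarith

/-- the kernel law -/
theorem Good.kernel_law {m : Finset X → ℝ} {l1 l s : ℝ} {H : Finset X} (h : Good m l1 l s H)
    (lam τ : ℝ) {p : Finset X → ℝ} (hp : Law (SS H s) p) :
    ∃ r : Finset X × Finset X → ℝ, (∀ x, 0 ≤ r x) ∧ ∑ x, r x = 1 ∧ mass r Prod.fst = p ∧
      (∀ x, r x ≠ 0 → x.2 ⊆ x.1 ∧ SS H s x.1) ∧
      ∑ C, p C * log (Zp m lam τ C) = (Hf r - Hf p) - lam * (∑ x, r x * exf m l x.2)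
        - (lam * l - τ) * (∑ x, r x * (x.2.card : ℝ)) ∧
      Hf (mass r Prod.snd) ≤ ∑ x, r x * exf m l x.2
        + (l - l1) * (∑ x, r x * (x.2.card : ℝ)) + 6 / 5 := by
  classical
  set r : Finset X × Finset X → ℝ := fun x => p x.1 * kerT m lam τ x.1 x.2 with hr
  have hr0 : ∀ x, 0 ≤ r x := fun x => mul_nonneg (hp.1 _) (kerT_nonneg _ _ _ _ _)
  have hmf : mass r Prod.fst = p := by
    funext C
    rw [mass_fst]
    simp only [hr]
    rw [← Finset.mul_sum, sum_kerT, mul_one]
  have hr1 : ∑ x, r x = 1 := by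
    rw [← sum_mass r Prod.fst, hmf, hp.2.1]
  have hsup : ∀ x, r x ≠ 0 → x.2 ⊆ x.1 ∧ SS H s x.1 := by
    intro x hx
    constructor
    · by_contra hcon
      apply hx
      simp only [hr, kerT, if_neg hcon, mul_zero]
    · refine hp.2.2 _ (fun h0 => hx ?_)
      simp only [hr, h0, zero_mul]
  refine ⟨r, hr0, hr1, hmf, hsup, ?_, ?_⟩
  · have e1 : Hf r = Hf p + lam * (∑ x, r x * exf m l x.2)
        + (lam * l - τ) * (∑ x, r x * (x.2.card : ℝ)) + ∑ x, r x * log (Zp m lam τ x.1) := by
      have a1 : Hf p = ∑ x, r x * (-log (p x.1)) := by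
        have := sum_mass_mul r Prod.fst (fun C => -log (p C))
        rw [hmf] at this
        rw [← this]
        unfold Hf negMulLog
        exact Finset.sum_congr rfl (fun z _ => by ring)
      rw [a1, Finset.mul_sum, Finset.mul_sum, ← Finset.sum_add_distrib, ← Finset.sum_add_distrib,
        ← Finset.sum_add_distrib]
      unfold Hf negMulLog
      refine Finset.sum_congr rfl (fun x _ => ?_)
      by_cases h0 : r x = 0
      · rw [h0]; simp
      · have hsub := (hsup x h0).1
        have hpx : p x.1 ≠ 0 := fun h' => h0 (by simp only [hr, h', zero_mul])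
        have hk := kerT_pos m lam τ hsub
        have : log (r x) = log (p x.1) + log (kerT m lam τ x.1 x.2) := by
          simp only [hr]
          exact Real.log_mul hpx hk.ne'
        rw [this, log_kerT m lam τ hsub]
        unfold exf
        ring
    have e2 := sum_mass_mul r Prod.fst (fun C => log (Zp m lam τ C))
    rw [hmf] at e2
    rw [e1, e2]
    ring
  · have hJ : ∀ z, mass r Prod.snd z ≠ 0 → z ∈ H.powerset := by
      intro z hz
      by_contra hcon
      apply hz
      rw [mass_snd]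
      refine Finset.sum_eq_zero (fun C _ => ?_)
      by_contra h'
      apply hcon
      rw [Finset.mem_powerset]
      exact (hsup _ h').1.trans (hsup _ h').2.1
    have hW : ∑ z ∈ H.powerset, exp (-exf m l1 z) ≤ 13 / 4 := by
      simp only [exp_neg_exf h.pos]
      have h2 := h.all
      unfold fs at h2
      have h3 : ∑ z ∈ H.powerset.filter (fun z => ¬ (1:ℝ) ≤ (z.card : ℝ)),
          m z * exp (l1 * (z.card : ℝ)) ≤ 1 := by
        have h4 : H.powerset.filter (fun z => ¬ (1:ℝ) ≤ (z.card : ℝ)) ⊆ {∅} := by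
          intro z hz
          simp only [Finset.mem_filter, not_le] at hz
          rw [Finset.mem_singleton]
          by_contra hne
          have : 0 < z.card := Finset.card_pos.mpr (Finset.nonempty_iff_ne_empty.mpr hne)
          have : (1:ℝ) ≤ (z.card : ℝ) := by exact_mod_cast this
          linarith [hz.2]
        refine (Finset.sum_le_sum_of_subset_of_nonneg h4 (fun z _ _ =>
          mul_nonneg (h.pos z).le (exp_pos _).le)).trans ?_
        rw [Finset.sum_singleton]
        simp only [Finset.card_empty, Nat.cast_zero, mul_zero, Real.exp_zero, mul_one]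
        exact m_le_one h.pos h.sum ∅
      have h5 := Finset.sum_filter_add_sum_filter_not H.powerset
        (fun z : Finset X => (1:ℝ) ≤ (z.card : ℝ)) (fun z => m z * exp (l1 * (z.card : ℝ)))
      rw [← h5]
      have h6 : ∑ z ∈ H.powerset.filter (fun z => (1:ℝ) ≤ (z.card : ℝ)),
          m z * exp (l1 * (z.card : ℝ)) ≤ 9 / 4 := by
        convert h2 using 2
      linarith
    have hg := gibbs_fin (mass_nonneg hr0 Prod.snd) (by rw [sum_mass, hr1]) H.powerset hJ
      (exf m l1) hW (by norm_num)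
    rw [sum_mass_mul r Prod.snd (exf m l1)] at hg
    have e : ∑ x, r x * exf m l1 x.2 = ∑ x, r x * exf m l x.2
        + (l - l1) * (∑ x, r x * (x.2.card : ℝ)) := by
      rw [Finset.mul_sum, ← Finset.sum_add_distrib]
      refine Finset.sum_congr rfl (fun x _ => ?_)
      unfold exf
      ring
    rw [e] at hg
    have := log_thirteen_four
    linarith

end Vale.Agent.Tal
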