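import Vale.Agent.Tal.PartF

namespace Vale.Agent.Tal

open Finset Real Vale.Agent.P064

set_option linter.unusedSectionVars false

variable {X : Type} [Fintype X] [DecidableEq X]

theorem coupling {S : Finset X → Prop} {ex : Finset X → ℝ} {B Φ : ℝ}
    (hD : ∀ p, Law S p → 0 ≤ De ex p) (hB : 0 ≤ B) (hΦ : 0 ≤ Φ) (hpair : PairE S ex B Φ)
    {r : Finset X × Finset X → ℝ} (hr : ∀ x, 0 ≤ r x) (h1 : ∑ x, r x = 1)
    (hs : ∀ x, r x ≠ 0 → x.2 ⊆ x.1 ∧ S x.1) :
    2 * (Hf r - Hf (mass r Prod.fst)) - Hf (mass r Prod.snd)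
      ≤ Φ + 2 * B * De ex (mass r Prod.fst) := by
  classical
  set u : Finset X × Finset X → ℝ := fun x => r (x.2, x.1) with hu
  have hu0 : ∀ x, 0 ≤ u x := fun x => hr _
  set q := dbl u with hq
  have hq0 : ∀ x, 0 ≤ q x := dbl_nonneg hu0
  have hswap : ∀ F : Finset X × Finset X → ℝ, ∑ x, u x * F x = ∑ x, r x * F (x.2, x.1) := by
    intro F
    rw [← Equiv.sum_comp (Equiv.prodComm (Finset X) (Finset X))]
    rfl
  have hu1 : ∑ x, u x = 1 := by
    have := hswap (fun _ => 1)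
    simpa [h1] using this
  have hq1 : ∑ x, q x = 1 := by rw [hq, sum_dbl hu0, hu1]
  have hHfu : Hf u = Hf r := by
    unfold Hf
    rw [← Equiv.sum_comp (Equiv.prodComm (Finset X) (Finset X))]
    rfl
  have hufst : mass u Prod.fst = mass r Prod.snd := by
    funext j
    rw [mass_fst, mass_snd]
  have husnd : mass u Prod.snd = mass r Prod.fst := by
    funext j
    rw [mass_fst, mass_snd]
  have hqsupp : ∀ x, q x ≠ 0 → r (x.2.1, x.1) ≠ 0 ∧ r (x.2.2, x.1) ≠ 0 := by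
    intro x hx
    constructor
    · intro h; apply hx; simp only [hq, dbl, hu, h]; simp
    · intro h; apply hx; simp only [hq, dbl, hu, h]; simp
  have hqs : ∀ x, q x ≠ 0 → x.1 ⊆ x.2.1 ∩ x.2.2 ∧ S x.2.1 ∧ S x.2.2 := by
    intro x hx
    obtain ⟨ha, hb⟩ := hqsupp x hx
    have h3 := hs _ ha
    have h4 := hs _ hb
    exact ⟨Finset.subset_inter h3.1 h4.1, h3.2, h4.2⟩
  have hHq : Hf q = 2 * Hf r - Hf (mass r Prod.snd) := by
    rw [hq, Hf_dbl hu0, hHfu, hufst]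
  set P2 := mass q (fun x => (x.2.1, x.2.2)) with hP2
  have hP20 : ∀ x, 0 ≤ P2 x := mass_nonneg hq0 _
  have hP21 : ∑ x, P2 x = 1 := by rw [hP2, sum_mass, hq1]
  have hP2s : ∀ x, P2 x ≠ 0 → S x.1 ∧ S x.2 := by
    intro x hx
    by_contra hcon
    apply hx
    rw [hP2]
    unfold mass
    refine Finset.sum_eq_zero (fun y _ => ?_)
    by_cases hy : (y.2.1, y.2.2) = x
    · rw [if_pos hy]
      by_contra h
      apply hcon
      rw [← hy]
      exact (hqs y h).2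
    · rw [if_neg hy]
  have hpb := hpair P2 ⟨hP20, hP21, hP2s⟩
  have g1 : mass P2 Prod.fst = mass r Prod.fst := by
    have : mass P2 Prod.fst = mass q (fun x => x.2.1) := by
      funext a; rw [hP2, mass_comp]
    rw [this, ← husnd]
    funext a
    exact mass_dbl_left hu0 Prod.snd a
  have g2 : mass P2 Prod.snd = mass r Prod.fst := by
    have : mass P2 Prod.snd = mass q (fun x => x.2.2) := by
      funext a; rw [hP2, mass_comp]
    rw [this, ← husnd]
    funext a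
    exact mass_dbl_right hu0 Prod.snd a
  have g3 : ∑ x, P2 x * ((iP x).card : ℝ) = ∑ x, q x * ((iP (x.2.1, x.2.2)).card : ℝ) := by
    rw [hP2]
    exact sum_mass_mul q (fun x => (x.2.1, x.2.2)) (fun y => ((iP y).card : ℝ))
  have hcent := cent_subset_le hq0 (fun x => x.1) (fun x => (x.2.1, x.2.2)) iP
    (fun x hx => (hqs x hx).1) (show (0:ℝ) < 1 by norm_num)
  have hcent2 : cent q (fun x => x.1) (fun x => (x.2.1, x.2.2)) = Hf q - Hf P2 := by
    unfold cent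
    rw [hP2, Hf_eq_ent q, ent_eq_Hf q (fun x => (x.2.1, x.2.2))]
  rw [hcent2, Real.log_one, zero_mul, zero_add, div_one, ← g3] at hcent
  have hmi2 : mi P2 = 2 * Hf (mass r Prod.fst) - Hf P2 := by
    unfold mi
    rw [g1, g2]; ring
  rw [g1, g2] at hpb
  linarith

theorem Good.unionE {m : Finset X → ℝ} {l1 l s : ℝ} {H : Finset X} (h : Good m l1 l s H)
    {Φ : ℝ} (hΦ : 0 ≤ Φ) (hp : PairE (SS H s) (exf m l) (1 / 700) Φ) :
    UnionE (SS H s) (exf m l) (1 / 700) Φ 60 6 := by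
  intro Q hQ hsym
  obtain ⟨hQ0, hQ1, hQs⟩ := hQ
  have hmarg : mass Q Prod.snd = mass Q Prod.fst := by
    funext a
    rw [mass_fst, mass_snd]
    exact Finset.sum_congr rfl (fun b _ => hsym _ _)
  have hnode := node_closed h.pos h.cl1 l hQ0 hQ1
  have hlaw : Law (SS H s) (mass Q Prod.fst) := by
    refine ⟨mass_nonneg hQ0 _, by rw [sum_mass, hQ1], fun z hz => ?_⟩
    by_contra hcon
    apply hz
    rw [mass_fst]
    refine Finset.sum_eq_zero (fun b _ => ?_)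
    by_contra h'
    exact hcon (hQs _ h').1
  obtain ⟨r, hr0, hr1, hr2, hr3, hr4, hr5⟩ := h.kernel_law (1 / 2) (l1 / 2) hlaw
  have hcoup := coupling h.De_nonneg (by norm_num) hΦ hp hr0 hr1 hr3
  rw [hr2] at hcoup
  have z1 : ∑ x, Q x * log (Zp m (1 / 2) (l1 / 2) x.1)
      = ∑ C, mass Q Prod.fst C * log (Zp m (1 / 2) (l1 / 2) C) :=
    (sum_mass_mul Q Prod.fst (fun C => log (Zp m (1 / 2) (l1 / 2) C))).symm
  have z2 : ∑ x, Q x * log (Zp m (1 / 2) (l1 / 2) x.2)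
      = ∑ C, mass Q Prod.fst C * log (Zp m (1 / 2) (l1 / 2) C) := by
    rw [← hmarg]
    exact (sum_mass_mul Q Prod.snd (fun C => log (Zp m (1 / 2) (l1 / 2) C))).symm
  rw [z1, z2, hmarg, hr4] at hnode
  have hj0 : 0 ≤ ∑ x, Q x * ((iP x).card : ℝ) :=
    Finset.sum_nonneg (fun x _ => mul_nonneg (hQ0 x) (Nat.cast_nonneg _))
  have hl' := h.hl'
  have h60 : (l - l1) * (∑ x, Q x * ((iP x).card : ℝ)) ≤ 60 * (∑ x, Q x * ((iP x).card : ℝ)) :=
    mul_le_mul_of_nonneg_right (by linarith) hj0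
  have e1 : 2 * (1 / 2 * l - l1 / 2) * (∑ x, Q x * ((iP x).card : ℝ))
      = (l - l1) * (∑ x, Q x * ((iP x).card : ℝ)) := by ring
  have e2 : (1 - 2 * (1 / 2 : ℝ)) * (∑ x, Q x * exf m l (iP x)) = 0 := by ring
  rw [e1, e2] at hnode
  have e3 : (1 / 2 * l - l1 / 2) * (∑ x, r x * (x.2.card : ℝ))
      = 1 / 2 * ((l - l1) * (∑ x, r x * (x.2.card : ℝ))) := by ring
  rw [e3] at hnode
  linarith

end Vale.Agent.Tal
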