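import Vale.Agent.Tal.PartG
import Vale.Agent.Tal.PartD

namespace Vale.Agent.Tal

open Finset Real Vale.Agent.P064

set_option linter.unusedSectionVars false

variable {X : Type} [Fintype X] [DecidableEq X]

lemma law_fst {S : Finset X → Prop} {P : Finset X × Finset X → ℝ} (h : Law2 S P) :
    Law S (mass P Prod.fst) :=
  ⟨mass_nonneg h.1 _, by rw [sum_mass, h.2.1], mass_fst_suppS (fun x hx => (h.2.2 x hx).1)⟩

lemma law_snd {S : Finset X → Prop} {P : Finset X × Finset X → ℝ} (h : Law2 S P) :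
    Law S (mass P Prod.snd) :=
  ⟨mass_nonneg h.1 _, by rw [sum_mass, h.2.1], mass_snd_suppS (fun x hx => (h.2.2 x hx).2)⟩

lemma law_uP {S : Finset X → Prop} (hSu : ∀ a b, S a → S b → S (a ∪ b))
    {P : Finset X × Finset X → ℝ} (h : Law2 S P) : Law S (mass P uP) := by
  refine ⟨mass_nonneg h.1 _, by rw [sum_mass, h.2.1], fun z hz => ?_⟩
  by_contra hcon
  apply hz
  unfold mass
  refine Finset.sum_eq_zero (fun x _ => ?_)
  by_cases hx : uP x = z
  · rw [if_pos hx]
    by_contra h'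
    apply hcon
    rw [← hx]
    exact hSu _ _ (h.2.2 x h').1 (h.2.2 x h').2
  · rw [if_neg hx]

lemma log_thousand : log 1000 ≤ 7 := by
  rw [Real.log_le_iff_le_exp (by norm_num)]
  have h1 : (2.7182818283 : ℝ) < exp 1 := Real.exp_one_gt_d9
  have h2 : exp 7 = exp 1 ^ 7 := by
    rw [← Real.exp_nat_mul]
    norm_num
  rw [h2]
  calc (1000 : ℝ) ≤ 2.7182818283 ^ 7 := by norm_num
    _ ≤ exp 1 ^ 7 := pow_le_pow_left₀ (by norm_num) h1.le _

lemma Good.logZ_growth {m : Finset X → ℝ} {l1 l s : ℝ} {H : Finset X} (h : Good m l1 l s H)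
    {Φ : ℝ} (hΦ : 6 ≤ Φ) (hpair : PairE (SS H s) (exf m l) (1 / 700) Φ) {p : Finset X → ℝ}
    (hp : Law (SS H s) p) :
    ∑ C, p C * log (Zp m (9 / 20) (9 / 20 * l1 - 8) C)
      ≤ 33 / 400 * (Φ + 2 * (1 / 700) * De (exf m l) p) + 27 / 50 := by
  obtain ⟨r, hr0, hr1, hr2, hr3, hr4, hr5⟩ := h.kernel_law (9 / 20) (9 / 20 * l1 - 8) hp
  have hg := growthE SS_union h.De_nonneg (B := 1 / 700) (Φ := Φ) (c := 60) (κ := 6)
    (by norm_num) (by linarith) (by norm_num) (by norm_num) (by linarith) (by norm_num)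
    hpair (h.unionE (by linarith) hpair) hr0 hr1 hr3 (α := 1 / 1000) (by norm_num) (by norm_num)
  have hmi0 := mi_nonneg hr0 hr1
  have hmi : mi r = Hf p + Hf (mass r Prod.snd) - Hf r := by
    unfold mi
    rw [hr2]
  rw [hr2, one_div_one_div] at hg
  rw [hr4]
  set j := ∑ x, r x * (x.2.card : ℝ) with hj
  have hj0 : 0 ≤ j := Finset.sum_nonneg (fun x _ => mul_nonneg (hr0 x) (Nat.cast_nonneg _))
  have hjl : j * log 1000 ≤ j * 7 := mul_le_mul_of_nonneg_left log_thousand hj0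
  have e1 : (9 / 20 * l - (9 / 20 * l1 - 8)) * j = 9 / 20 * ((l - l1) * j) + 8 * j := by ring
  rw [e1]
  set E := ∑ x, r x * exf m l x.2 with hE
  set D := De (exf m l) p with hD
  set Hs := Hf (mass r Prod.snd) with hHs
  set K := (l - l1) * j with hK
  linarith

theorem Good.pair6 {m : Finset X → ℝ} {l1 l s : ℝ} {H : Finset X} (h : Good m l1 l s H) :
    PairE (SS H s) (exf m l) (1 / 700) 6 := by
  by_contra hcon
  unfold PairE at hcon
  push Not at hcon
  obtain ⟨P0, hP0, hlt⟩ := hcon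
  set phi : (Finset X × Finset X → ℝ) → ℝ := fun P => ∑ x, P x * ((iP x).card : ℝ) - mi P
    - 1 / 700 * (De (exf m l) (mass P Prod.fst) + De (exf m l) (mass P Prod.snd)) with hphi
  set T : Set ℝ := phi '' {P | Law2 (SS H s) P} with hT
  have hbdd : BddAbove T := by
    refine ⟨(Fintype.card X : ℝ), ?_⟩
    rintro _ ⟨P, hP, rfl⟩
    have hP : Law2 (SS H s) P := hP
    have hD1 := h.De_nonneg _ (law_fst hP)
    have hD2 := h.De_nonneg _ (law_snd hP)
    have hmi := mi_nonneg hP.1 hP.2.1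
    have h2 : ∑ x, P x * ((iP x).card : ℝ) ≤ ∑ x, P x * (Fintype.card X : ℝ) :=
      Finset.sum_le_sum (fun x _ => mul_le_mul_of_nonneg_left
        (by exact_mod_cast Finset.card_le_univ _) (hP.1 x))
    rw [← Finset.sum_mul, hP.2.1, one_mul] at h2
    simp only [hphi]
    linarith
  have h0T : phi P0 ∈ T := ⟨P0, hP0, rfl⟩
  set Φ := sSup T with hΦdef
  have hΦ6 : 6 < Φ := by
    refine lt_of_lt_of_le ?_ (le_csSup hbdd h0T)
    simp only [hphi]
    linarith
  have hpair : PairE (SS H s) (exf m l) (1 / 700) Φ := by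
    intro Q hQ
    have := le_csSup hbdd (show phi Q ∈ T from ⟨Q, hQ, rfl⟩)
    simp only [hphi] at this
    linarith
  obtain ⟨_, ⟨P, hP, rfl⟩, hltP⟩ := exists_lt_of_lt_csSup ⟨_, h0T⟩
    (show Φ / 2 < Φ by linarith)
  have hP : Law2 (SS H s) P := hP
  have hD1 := h.De_nonneg _ (law_fst hP)
  have hD2 := h.De_nonneg _ (law_snd hP)
  have hDu := h.De_nonneg _ (law_uP SS_union hP)
  have hmi := mi_nonneg hP.1 hP.2.1
  have hnode := node_closed h.pos h.cl2 l hP.1 hP.2.1
  have hz1 := h.logZ_growth hΦ6.le hpair (law_fst hP)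
  have hz2 := h.logZ_growth hΦ6.le hpair (law_snd hP)
  rw [sum_mass_mul P Prod.fst (fun C => log (Zp m (9 / 20) (9 / 20 * l1 - 8) C))] at hz1
  rw [sum_mass_mul P Prod.snd (fun C => log (Zp m (9 / 20) (9 / 20 * l1 - 8) C))] at hz2
  simp only [hphi] at hltP
  set j := ∑ x, P x * ((iP x).card : ℝ) with hj
  have hj0 : 0 ≤ j := Finset.sum_nonneg (fun x _ => mul_nonneg (hP.1 x) (Nat.cast_nonneg _))
  have hex : 8000 * j ≤ ∑ x, P x * exf m l (iP x) := by
    rw [hj, Finset.mul_sum]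
    refine Finset.sum_le_sum (fun x _ => ?_)
    by_cases h0 : P x = 0
    · rw [h0]; simp
    have hsub : iP x ⊆ H := Finset.inter_subset_left.trans (hP.2.2 x h0).1.1
    have := mul_le_mul_of_nonneg_left (h.ex_ge hsub) (hP.1 x)
    linarith
  have hb : 2 * (9 / 20 * l - (9 / 20 * l1 - 8)) * j ≤ 70 * j := by
    refine mul_le_mul_of_nonneg_right ?_ hj0
    have := h.hl'
    linarith
  set D1 := De (exf m l) (mass P Prod.fst) with hD1d
  set D2 := De (exf m l) (mass P Prod.snd) with hD2d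
  linarith

end Vale.Agent.Tal
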