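import Vale.Agent.Tal.PartH
import Vale.Agent.P064.Core

namespace Vale.Agent.Tal

open Finset Real Vale.Agent.P064

set_option linter.unusedSectionVars false

variable {X : Type} [Fintype X] [DecidableEq X]

theorem Good.climb {m : Finset X → ℝ} {l1 l s : ℝ} {H : Finset X} (h : Good m l1 l s H)
    {ν : Finset X → ℝ} (hν : Law (SS H s) ν) {δ s' : ℝ} (hδ : 0 ≤ δ) (hs' : 0 ≤ s')
    (hlt : De (exf m l) ν + 1 / 5 < δ * (∑ z, ν z * (z.card : ℝ) - s')) :
    1 ≤ fs m s' (l + δ) H := by
  classical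
  by_contra hcon
  push Not at hcon
  set T := H.powerset.filter (fun z => s ≤ (z.card : ℝ)) with hT
  set f : Finset X → ℝ := fun z => exf m l z - (if s' ≤ (z.card : ℝ) then δ * (z.card : ℝ) else 0)
    with hf
  have hexp : ∀ z, exp (-f z) ≤ m z * exp (l * (z.card : ℝ))
      + (if s' ≤ (z.card : ℝ) then m z * exp ((l + δ) * (z.card : ℝ)) else 0) := by
    intro z
    simp only [hf]
    split_ifs with hz
    · have e : exp (-(exf m l z - δ * (z.card : ℝ))) = m z * exp ((l + δ) * (z.card : ℝ)) := by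
        rw [neg_sub, sub_eq_add_neg, Real.exp_add, exp_neg_exf h.pos, add_mul, Real.exp_add]
        ring
      rw [e]
      have : 0 ≤ m z * exp (l * (z.card : ℝ)) := mul_nonneg (h.pos z).le (exp_pos _).le
      linarith
    · rw [sub_zero, exp_neg_exf h.pos, add_zero]
  have hW : ∑ z ∈ T, exp (-f z) ≤ 13 / 4 := by
    refine (Finset.sum_le_sum (fun z _ => hexp z)).trans ?_
    rw [Finset.sum_add_distrib]
    have h1 : ∑ z ∈ T, m z * exp (l * (z.card : ℝ)) ≤ 9 / 4 := by
      have := h.up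
      unfold fs at this
      rw [hT]
      convert this using 2
    have h2 : ∑ z ∈ T, (if s' ≤ (z.card : ℝ) then m z * exp ((l + δ) * (z.card : ℝ)) else 0)
        ≤ 1 := by
      have h3 : ∑ z ∈ T, (if s' ≤ (z.card : ℝ) then m z * exp ((l + δ) * (z.card : ℝ)) else 0)
          ≤ ∑ z ∈ H.powerset, (if s' ≤ (z.card : ℝ) then
            m z * exp ((l + δ) * (z.card : ℝ)) else 0) := by
        refine Finset.sum_le_sum_of_subset_of_nonneg (Finset.filter_subset _ _) (fun z _ _ => ?_)
        split_ifs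
        · exact mul_nonneg (h.pos z).le (exp_pos _).le
        · exact le_rfl
      refine h3.trans (le_trans (le_of_eq ?_) hcon.le)
      rw [← Finset.sum_filter]
      unfold fs
      congr 1
    linarith
  have hg := gibbs_fin hν.1 hν.2.1 T (fun z hz => by
      have := hν.2.2 z hz
      exact Finset.mem_filter.mpr ⟨Finset.mem_powerset.mpr this.1, this.2⟩) f hW (by norm_num)
  have h13 := log_thirteen_four
  have e1 : ∑ z, ν z * f z = ∑ z, ν z * exf m l z
      - δ * ∑ z, ν z * (if s' ≤ (z.card : ℝ) then (z.card : ℝ) else 0) := by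
    rw [Finset.mul_sum, ← Finset.sum_sub_distrib]
    refine Finset.sum_congr rfl (fun z _ => ?_)
    simp only [hf]
    split_ifs <;> ring
  have e2 : ∑ z, ν z * (z.card : ℝ) - s'
      ≤ ∑ z, ν z * (if s' ≤ (z.card : ℝ) then (z.card : ℝ) else 0) := by
    have : s' = ∑ z, ν z * s' := by rw [← Finset.sum_mul, hν.2.1, one_mul]
    rw [this, ← Finset.sum_sub_distrib, ← this]
    refine Finset.sum_le_sum (fun z _ => ?_)
    have hz0 := hν.1 z
    split_ifs with hz
    · nlinarith
    · push Not at hz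
      nlinarith
  have e3 := mul_le_mul_of_nonneg_left e2 hδ
  unfold De at hlt
  rw [e1] at hg
  linarith

/-- the Gibbs law -/
theorem Good.gibbs_law {m : Finset X → ℝ} {l1 l s : ℝ} {H : Finset X} (h : Good m l1 l s H) :
    ∃ γ : Finset X → ℝ, Law (SS H s) γ ∧ De (exf m l) γ ≤ 1 := by
  classical
  set T := H.powerset.filter (fun z => s ≤ (z.card : ℝ)) with hT
  set W := ∑ z ∈ T, m z * exp (l * (z.card : ℝ)) with hWd
  have hW1 : 1 ≤ W := by
    have := h.lo
    unfold fs at this
    rw [hWd, hT]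
    convert this using 2
  have hW0 : 0 < W := by linarith
  set γ : Finset X → ℝ := fun z => if z ∈ T then m z * exp (l * (z.card : ℝ)) / W else 0 with hγ
  have hγ0 : ∀ z, 0 ≤ γ z := by
    intro z
    simp only [hγ]
    split_ifs
    · have := h.pos z
      positivity
    · exact le_rfl
  have hγ1 : ∑ z, γ z = 1 := by
    simp only [hγ]
    rw [← Finset.sum_filter]
    have : univ.filter (fun z => z ∈ T) = T := by ext; simp
    rw [this, ← Finset.sum_div, ← hWd, div_self hW0.ne']
  have hsup : ∀ z, γ z ≠ 0 → z ∈ T := by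
    intro z hz
    by_contra hcon
    exact hz (by simp only [hγ]; rw [if_neg hcon])
  refine ⟨γ, ⟨hγ0, hγ1, fun z hz => ?_⟩, ?_⟩
  · have := hsup z hz
    simp only [hT, Finset.mem_filter, Finset.mem_powerset] at this
    exact this
  · have e : Hf γ = ∑ z, γ z * exf m l z + log W := by
      have e1 : ∑ z, γ z * exf m l z + log W = ∑ z, γ z * (exf m l z + log W) := by
        simp_rw [mul_add]
        rw [Finset.sum_add_distrib, ← Finset.sum_mul, hγ1, one_mul]
      rw [e1]
      unfold Hf negMulLog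
      refine Finset.sum_congr rfl (fun z _ => ?_)
      by_cases h0 : γ z = 0
      · rw [h0]; simp
      · have hz := hsup z h0
        have : γ z = m z * exp (l * (z.card : ℝ)) / W := by simp only [hγ]; rw [if_pos hz]
        have hlog : log (γ z) = -exf m l z - log W := by
          rw [this, ← exp_neg_exf h.pos, Real.log_div (exp_pos _).ne' hW0.ne', Real.log_exp]
        rw [hlog]; ring
    have := Real.log_nonneg hW1
    unfold De
    linarith

/-- facts on the product of two copies of the Gibbs law -/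
lemma prod_law {S : Finset X → Prop} {γ : Finset X → ℝ} (hγ : Law S γ) :
    Law2 S (fun x : Finset X × Finset X => γ x.1 * γ x.2) ∧
      mi (fun x : Finset X × Finset X => γ x.1 * γ x.2) = 0 := by
  constructor
  · refine ⟨fun x => mul_nonneg (hγ.1 _) (hγ.1 _), ?_, fun x hx => ?_⟩
    · rw [Fintype.sum_prod_type]
      simp only
      simp_rw [← Finset.mul_sum, hγ.2.1, mul_one, hγ.2.1]
    · exact ⟨hγ.2.2 _ (fun h => hx (by simp [h])), hγ.2.2 _ (fun h => hx (by simp [h]))⟩
  · unfold mi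
    rw [mass_fst_prod hγ.2.1, mass_snd_prod hγ.2.1, Hf_prod hγ.2.1 hγ.2.1]
    ring

lemma sum_card_uP (P : Finset X × Finset X → ℝ) :
    ∑ z, mass P uP z * (z.card : ℝ) = ∑ z, mass P Prod.fst z * (z.card : ℝ)
      + ∑ z, mass P Prod.snd z * (z.card : ℝ) - ∑ x, P x * ((iP x).card : ℝ) := by
  rw [sum_mass_mul P uP (fun z => (z.card : ℝ)), sum_mass_mul P Prod.fst (fun z => (z.card : ℝ)),
    sum_mass_mul P Prod.snd (fun z => (z.card : ℝ)), ← Finset.sum_add_distrib,
    ← Finset.sum_sub_distrib]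
  refine Finset.sum_congr rfl (fun x _ => ?_)
  rw [card_uP]
  ring

lemma le_mean {H : Finset X} {s : ℝ} {γ : Finset X → ℝ} (hγ : Law (SS H s) γ) :
    s ≤ ∑ z, γ z * (z.card : ℝ) := by
  have : s = ∑ z, γ z * s := by rw [← Finset.sum_mul, hγ.2.1, one_mul]
  rw [this]
  refine Finset.sum_le_sum (fun z _ => ?_)
  by_cases h0 : γ z = 0
  · rw [h0]; simp
  · exact mul_le_mul_of_nonneg_left (hγ.2.2 z h0).2 (hγ.1 z)

lemma Good.crude_sum {m : Finset X → ℝ} {l1 l s : ℝ} {H : Finset X} (h : Good m l1 l s H)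
    {lam τ : ℝ} (hlam : 9 / 20 ≤ lam) (hτ : τ ≤ lam * l) {p : Finset X → ℝ}
    (hp : Law (SS H s) p) :
    ∑ z, p z * log (Zp m lam τ z) ≤ (∑ z, p z * (z.card : ℝ)) / 1000 := by
  rw [Finset.sum_div]
  refine Finset.sum_le_sum (fun z _ => ?_)
  by_cases h0 : p z = 0
  · rw [h0]; simp
  · have := mul_le_mul_of_nonneg_left (h.logZ_le hlam hτ (hp.2.2 z h0).1) (hp.1 z)
    linarith

theorem Good.step_crude {m : Finset X → ℝ} {l1 l s : ℝ} {H : Finset X} (h : Good m l1 l s H) :
    1 ≤ fs m (3 / 2 * s) (l + (16 / s + 1 / 100)) H := by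
  obtain ⟨γ, hγ, hDγ⟩ := h.gibbs_law
  obtain ⟨hP, hmi⟩ := prod_law hγ
  set P : Finset X × Finset X → ℝ := fun x => γ x.1 * γ x.2 with hPdef
  have hm1 : mass P Prod.fst = γ := mass_fst_prod hγ.2.1
  have hm2 : mass P Prod.snd = γ := mass_snd_prod hγ.2.1
  set e := ∑ z, γ z * (z.card : ℝ) with he
  have hes : s ≤ e := le_mean hγ
  have hs1 := h.hs
  have hl := h.hl
  have hl' := h.hl'
  set j := ∑ x, P x * ((iP x).card : ℝ) with hj
  have hj0 : 0 ≤ j := Finset.sum_nonneg (fun x _ => mul_nonneg (hP.1 x) (Nat.cast_nonneg _))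
  have hDu := h.De_nonneg _ (law_uP SS_union hP)
  -- the two node inequalities
  have hn1 := node_closed h.pos h.cl1 l hP.1 hP.2.1
  have hn2 := node_closed h.pos h.cl2 l hP.1 hP.2.1
  have za1 : ∑ x, P x * log (Zp m (1 / 2) (l1 / 2) x.1) ≤ e / 1000 := by
    rw [← sum_mass_mul P Prod.fst (fun C => log (Zp m (1 / 2) (l1 / 2) C)), hm1]
    exact h.crude_sum (by norm_num) (by linarith) hγ
  have za2 : ∑ x, P x * log (Zp m (1 / 2) (l1 / 2) x.2) ≤ e / 1000 := by
    rw [← sum_mass_mul P Prod.snd (fun C => log (Zp m (1 / 2) (l1 / 2) C)), hm2]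
    exact h.crude_sum (by norm_num) (by linarith) hγ
  have zb1 : ∑ x, P x * log (Zp m (9 / 20) (9 / 20 * l1 - 8) x.1) ≤ e / 1000 := by
    rw [← sum_mass_mul P Prod.fst (fun C => log (Zp m (9 / 20) (9 / 20 * l1 - 8) C)), hm1]
    exact h.crude_sum (by norm_num) (by linarith) hγ
  have zb2 : ∑ x, P x * log (Zp m (9 / 20) (9 / 20 * l1 - 8) x.2) ≤ e / 1000 := by
    rw [← sum_mass_mul P Prod.snd (fun C => log (Zp m (9 / 20) (9 / 20 * l1 - 8) C)), hm2]
    exact h.crude_sum (by norm_num) (by linarith) hγ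
  rw [hm1, hm2, hmi] at hn1 hn2
  rw [← hj] at hn1 hn2
  have hex : 8000 * j ≤ ∑ x, P x * exf m l (iP x) := by
    rw [hj, Finset.mul_sum]
    refine Finset.sum_le_sum (fun x _ => ?_)
    by_cases h0 : P x = 0
    · rw [h0]; simp
    have hsub : iP x ⊆ H := Finset.inter_subset_left.trans (hP.2.2 x h0).1.1
    have := mul_le_mul_of_nonneg_left (h.ex_ge hsub) (hP.1 x)
    linarith
  have hb1 : 2 * (1 / 2 * l - l1 / 2) * j ≤ 60 * j :=
    mul_le_mul_of_nonneg_right (by linarith) hj0
  have hb2 : 2 * (9 / 20 * l - (9 / 20 * l1 - 8)) * j ≤ 70 * j :=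
    mul_le_mul_of_nonneg_right (by linarith) hj0
  have hjle : 730 * j ≤ 6 + e / 500 := by linarith
  have hDle : De (exf m l) (mass P uP) ≤ 6 + 60 * j + e / 500 := by linarith
  -- climbing
  have hUe : ∑ z, mass P uP z * (z.card : ℝ) = 2 * e - j := by
    rw [sum_card_uP, hm1, hm2]
    ring
  have hsp : 0 < s := by linarith
  refine h.climb (law_uP SS_union hP) (by positivity) (by positivity) ?_
  rw [hUe]
  have h1 : 49 / 100 * e ≤ 2 * e - j - 3 / 2 * s := by linarith
  have hts : 16 / s * s = 16 := by field_simp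
  have ht0 : 0 < 16 / s := by positivity
  set t := 16 / s with ht
  have h2 : t * (49 / 100 * e) ≤ t * (2 * e - j - 3 / 2 * s) :=
    mul_le_mul_of_nonneg_left h1 ht0.le
  have h3 : t * s ≤ t * e := mul_le_mul_of_nonneg_left hes ht0.le
  rw [hts] at h3
  have h4 : (t + 1 / 100) * (2 * e - j - 3 / 2 * s)
      = t * (2 * e - j - 3 / 2 * s) + 1 / 100 * (2 * e - j - 3 / 2 * s) := by ring
  rw [h4]
  linarith

theorem Good.step_refined {m : Finset X → ℝ} {l1 l s : ℝ} {H : Finset X} (h : Good m l1 l s H)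
    (hs : 3000 ≤ s) : 1 ≤ fs m (3 / 2 * s) (l + 800 / s) H := by
  obtain ⟨γ, hγ, hDγ⟩ := h.gibbs_law
  obtain ⟨hP, hmi⟩ := prod_law hγ
  set P : Finset X × Finset X → ℝ := fun x => γ x.1 * γ x.2 with hPdef
  have hm1 : mass P Prod.fst = γ := mass_fst_prod hγ.2.1
  have hm2 : mass P Prod.snd = γ := mass_snd_prod hγ.2.1
  set e := ∑ z, γ z * (z.card : ℝ) with he
  have hes : s ≤ e := le_mean hγ
  set j := ∑ x, P x * ((iP x).card : ℝ) with hj
  have hj0 : 0 ≤ j := Finset.sum_nonneg (fun x _ => mul_nonneg (hP.1 x) (Nat.cast_nonneg _))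
  have hjle : j ≤ 6 + 2 / 700 := by
    have := h.pair6 P hP
    rw [hm1, hm2, hmi, ← hj] at this
    linarith
  have hDle : De (exf m l) (mass P uP) ≤ 376 := by
    have := h.unionE (Φ := 6) (by norm_num) h.pair6 P hP
      (fun a b => by simp only [hPdef]; ring)
    rw [hm1, hmi, ← hj] at this
    linarith
  have hUe : ∑ z, mass P uP z * (z.card : ℝ) = 2 * e - j := by
    rw [sum_card_uP, hm1, hm2]
    ring
  have hsp : 0 < s := by linarith
  refine h.climb (law_uP SS_union hP) (by positivity) (by positivity) ?_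
  rw [hUe]
  have hts : 800 / s * s = 800 := by field_simp
  have ht0 : 0 < 800 / s := by positivity
  set t := 800 / s with ht
  have h1 : 49 / 100 * s ≤ 2 * e - j - 3 / 2 * s := by linarith
  have h2 : t * (49 / 100 * s) ≤ t * (2 * e - j - 3 / 2 * s) :=
    mul_le_mul_of_nonneg_left h1 ht0.le
  have h3 : t * (49 / 100 * s) = 392 := by
    have : t * (49 / 100 * s) = 49 / 100 * (t * s) := by ring
    rw [this, hts]; norm_num
  rw [h3] at h2
  linarith

end Vale.Agent.Tal
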