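import Vale.Agent.Tal.PartI

/-!
# P034 Part J: minimal sets and induction over the scales
-/

namespace Vale.Agent.Tal

open Finset Real Vale.Agent.P064

variable {X : Type} [Fintype X] [DecidableEq X]

namespace PJ

lemma fs_mono {m : Finset X → ℝ} (hm : ∀ z, 0 < m z) {s l : ℝ} {H H' : Finset X} (h : H ⊆ H') :
    fs m s l H ≤ fs m s l H' := by
  classical
  unfold fs
  apply Finset.sum_le_sum_of_subset_of_nonneg
  · intro z hz
    rw [Finset.mem_filter, Finset.mem_powerset] at hz ⊢
    exact ⟨hz.1.trans h, hz.2⟩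
  · intro z _ _
    exact mul_nonneg (hm z).le (exp_pos _).le

lemma sum_erase_fs {m : Finset X → ℝ} {s l : ℝ} {H : Finset X} :
    ∑ e ∈ H, fs m s l (H.erase e) = ∑ z ∈ H.powerset.filter (fun z => s ≤ (z.card : ℝ)),
      (m z * exp (l * (z.card : ℝ))) * ((H.card : ℝ) - z.card) := by
  classical
  have h1 : ∀ e ∈ H, fs m s l (H.erase e) = ∑ z ∈ H.powerset.filter (fun z => s ≤ (z.card : ℝ)),
      if e ∉ z then m z * exp (l * (z.card : ℝ)) else 0 := by
    intro e _
    unfold fs
    rw [← Finset.sum_filter]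
    apply Finset.sum_congr _ fun _ _ => rfl
    ext z
    simp only [Finset.mem_filter, Finset.mem_powerset, Finset.subset_erase]
    tauto
  rw [Finset.sum_congr rfl h1, Finset.sum_comm]
  apply Finset.sum_congr rfl
  intro z hz
  rw [Finset.mem_filter, Finset.mem_powerset] at hz
  rw [← Finset.sum_filter, Finset.sum_const, nsmul_eq_mul, mul_comm]
  congr 1
  have h2 : (H.filter fun e => e ∉ z) = H \ z := by
    ext e; simp
  rw [h2, Finset.card_sdiff_of_subset hz.1, Nat.cast_sub (Finset.card_le_card hz.1)]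

end PJ

open PJ in
theorem minimal_le {m : Finset X → ℝ} (hm : ∀ z, 0 < m z) {s l : ℝ} (hs : 1 ≤ s)
    {H : Finset X}
    (hinc : ∀ z, z ⊆ H → z.Nonempty → m z * exp (l * (z.card : ℝ)) ≤ exp (-(10 * (z.card : ℝ))))
    (h1 : 1 ≤ fs m s l H) (hmin : ∀ H', H' ⊂ H → fs m s l H' < 1) : fs m s l H ≤ 9 / 4 := by
  classical
  set F := H.powerset.filter (fun z => s ≤ (z.card : ℝ)) with hF
  set w : Finset X → ℝ := fun z => m z * exp (l * (z.card : ℝ)) with hw
  have hw0 : ∀ z, 0 ≤ w z := fun z => mul_nonneg (hm z).le (exp_pos _).le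
  have hfs : fs m s l H = ∑ z ∈ F, w z := rfl
  have hne : H.Nonempty := by
    by_contra hcon
    rw [Finset.not_nonempty_iff_eq_empty] at hcon
    have : F = ∅ := by
      rw [hF, Finset.filter_eq_empty_iff]
      intro z hz
      rw [hcon, Finset.powerset_empty, Finset.mem_singleton] at hz
      rw [hz, Finset.card_empty]
      push_cast
      linarith
    rw [hfs, this, Finset.sum_empty] at h1
    norm_num at h1
  set n : ℝ := (H.card : ℝ) with hn
  have hn1 : 1 ≤ n := by
    rw [hn]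
    exact_mod_cast Finset.card_pos.2 hne
  have h2 : ∑ z ∈ F, w z * (n - z.card) ≤ n := by
    rw [← sum_erase_fs]
    calc ∑ e ∈ H, fs m s l (H.erase e) ≤ ∑ _e ∈ H, (1 : ℝ) :=
          Finset.sum_le_sum fun e he => (hmin _ (Finset.erase_ssubset he)).le
      _ = n := by simp [hn]
  -- split
  have h3 : ∑ z ∈ F.filter (fun z => 2 * (z.card : ℝ) ≤ n), w z ≤ 2 := by
    have e1 : (n / 2) * ∑ z ∈ F.filter (fun z => 2 * (z.card : ℝ) ≤ n), w z ≤ n := by
      rw [Finset.mul_sum]
      calc ∑ z ∈ F.filter (fun z => 2 * (z.card : ℝ) ≤ n), n / 2 * w z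
          ≤ ∑ z ∈ F.filter (fun z => 2 * (z.card : ℝ) ≤ n), w z * (n - z.card) := by
            apply Finset.sum_le_sum
            intro z hz
            rw [Finset.mem_filter] at hz
            rw [mul_comm]
            apply mul_le_mul_of_nonneg_left _ (hw0 z)
            linarith [hz.2]
        _ ≤ ∑ z ∈ F, w z * (n - z.card) := by
            apply Finset.sum_le_sum_of_subset_of_nonneg (Finset.filter_subset _ _)
            intro z hz _
            rw [hF, Finset.mem_filter, Finset.mem_powerset] at hz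
            apply mul_nonneg (hw0 z)
            have : (z.card : ℝ) ≤ n := by
              rw [hn]; exact_mod_cast Finset.card_le_card hz.1
            linarith
        _ ≤ n := h2
    by_contra hcon
    push Not at hcon
    have : (n / 2) * 2 < (n / 2) * ∑ z ∈ F.filter (fun z => 2 * (z.card : ℝ) ≤ n), w z :=
      mul_lt_mul_of_pos_left hcon (by linarith)
    linarith
  have h4 : ∑ z ∈ F.filter (fun z => ¬ 2 * (z.card : ℝ) ≤ n), w z ≤ 1 / 4 := by
    have e1 : ∀ z ∈ F.filter (fun z => ¬ 2 * (z.card : ℝ) ≤ n), w z ≤ exp (-(5 * n)) := by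
      intro z hz
      rw [Finset.mem_filter, hF, Finset.mem_filter, Finset.mem_powerset] at hz
      have hzc : n < 2 * (z.card : ℝ) := not_le.1 hz.2
      have hzne : z.Nonempty := by
        rw [← Finset.card_pos]
        have : (0 : ℝ) < z.card := by linarith
        exact_mod_cast this
      refine (hinc z hz.1.1 hzne).trans ?_
      rw [exp_le_exp]
      linarith
    have e2 : ((F.filter (fun z => ¬ 2 * (z.card : ℝ) ≤ n)).card : ℝ) ≤ 2 ^ H.card := by
      have : (F.filter (fun z => ¬ 2 * (z.card : ℝ) ≤ n)).card ≤ H.powerset.card :=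
        Finset.card_le_card ((Finset.filter_subset _ _).trans (Finset.filter_subset _ _))
      rw [Finset.card_powerset] at this
      exact_mod_cast this
    calc ∑ z ∈ F.filter (fun z => ¬ 2 * (z.card : ℝ) ≤ n), w z
        ≤ ∑ _z ∈ F.filter (fun z => ¬ 2 * (z.card : ℝ) ≤ n), exp (-(5 * n)) := Finset.sum_le_sum e1
      _ = ((F.filter (fun z => ¬ 2 * (z.card : ℝ) ≤ n)).card : ℝ) * exp (-(5 * n)) := by simp
      _ ≤ 2 ^ H.card * exp (-(5 * n)) := mul_le_mul_of_nonneg_right e2 (exp_pos _).le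
      _ = (2 * exp (-5)) ^ H.card := by
          rw [mul_pow, ← exp_nat_mul]
          congr 2
          rw [hn]; ring
      _ ≤ (2 * exp (-5)) ^ 1 := by
          apply pow_le_pow_of_le_one (by positivity) _ (Finset.card_pos.2 hne)
          have : exp (-5 : ℝ) ≤ 1 / 8 := by
            rw [exp_neg, inv_le_comm₀ (exp_pos _) (by norm_num)]
            have := add_one_le_exp (5 : ℝ)
            have h2 : exp (5 : ℝ) = exp (5 / 2 : ℝ) ^ 2 := by rw [← exp_nat_mul]; norm_num
            have h3 := add_one_le_exp (5 / 2 : ℝ)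
            rw [h2]
            nlinarith
          linarith
      _ ≤ 1 / 4 := by
          have : exp (-5 : ℝ) ≤ 1 / 8 := by
            rw [exp_neg, inv_le_comm₀ (exp_pos _) (by norm_num)]
            have h2 : exp (5 : ℝ) = exp (5 / 2 : ℝ) ^ 2 := by rw [← exp_nat_mul]; norm_num
            have h3 := add_one_le_exp (5 / 2 : ℝ)
            rw [h2]
            nlinarith
          rw [pow_one]
          linarith
  rw [hfs, ← Finset.sum_filter_add_sum_filter_not F (fun z => 2 * (z.card : ℝ) ≤ n)]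
  linarith

namespace PJ

/-- increments -/
noncomputable def dl (i : ℕ) : ℝ :=
  if i < 20 then 16 / (3 / 2) ^ i + 1 / 100 else 800 / (3 / 2) ^ i

lemma dl_nonneg (i : ℕ) : 0 ≤ dl i := by
  unfold dl
  split_ifs <;> positivity

lemma sum_dl_small (i : ℕ) (hi : i ≤ 20) :
    ∑ j ∈ Finset.range i, dl j = 48 * (1 - (2 / 3) ^ i) + (i : ℝ) / 100 := by
  induction i with
  | zero => simp
  | succ n ih =>
    rw [Finset.sum_range_succ, ih (by omega)]
    unfold dl
    rw [if_pos (by omega)]
    have h1 : (16 : ℝ) / (3 / 2) ^ n = 16 * (2 / 3) ^ n := by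
      rw [div_eq_mul_inv, ← inv_pow]; norm_num
    rw [h1, pow_succ]
    push_cast
    ring

lemma sum_dl_large (i : ℕ) :
    ∑ j ∈ Finset.range (20 + i), dl j = 48 * (1 - (2 / 3) ^ 20) + 20 / 100 +
      2400 * (2 / 3) ^ 20 * (1 - (2 / 3) ^ i) := by
  induction i with
  | zero => rw [add_zero, sum_dl_small 20 le_rfl]; norm_num
  | succ n ih =>
    rw [← add_assoc, Finset.sum_range_succ, ih]
    unfold dl
    rw [if_neg (by omega)]
    have h1 : (800 : ℝ) / (3 / 2) ^ (20 + n) = 800 * ((2 / 3) ^ 20 * (2 / 3) ^ n) := by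
      rw [div_eq_mul_inv, ← inv_pow, pow_add]; norm_num
    rw [h1, pow_succ]
    ring

lemma sum_dl_le (i : ℕ) : ∑ j ∈ Finset.range i, dl j ≤ 60 := by
  rcases le_total i 20 with h | h
  · rw [sum_dl_small i h]
    have h1 : (i : ℝ) ≤ 20 := by exact_mod_cast h
    have h2 : (0 : ℝ) ≤ (2 / 3) ^ i := by positivity
    linarith
  · obtain ⟨j, rfl⟩ := Nat.exists_eq_add_of_le h
    rw [sum_dl_large]
    have h2 : (0 : ℝ) ≤ (2 / 3) ^ j := by positivity
    have h3 : (2400 : ℝ) * (2 / 3) ^ 20 ≤ 1 := by norm_num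
    have h4 : (0 : ℝ) ≤ 2400 * (2 / 3) ^ 20 := by norm_num
    have h5 : (0 : ℝ) ≤ (2 / 3) ^ 20 := by norm_num
    nlinarith

/-- existence of minimal subsets -/
lemma exists_min {m : Finset X → ℝ} {s l : ℝ} {H : Finset X} (h : 1 ≤ fs m s l H) :
    ∃ H', H' ⊆ H ∧ 1 ≤ fs m s l H' ∧ ∀ H'', H'' ⊂ H' → fs m s l H'' < 1 := by
  classical
  induction H using Finset.strongInduction with
  | H H ih =>
    by_cases hex : ∃ H', H' ⊂ H ∧ 1 ≤ fs m s l H'
    · obtain ⟨H', hH', h1⟩ := hex
      obtain ⟨K, hK, hK1, hK2⟩ := ih H' hH' h1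
      exact ⟨K, hK.trans hH'.subset, hK1, hK2⟩
    · push Not at hex
      exact ⟨H, Finset.Subset.refl H, h, hex⟩

end PJ

open PJ in
theorem single_set {m : Finset X → ℝ} {l1 : ℝ} (pos : ∀ z, 0 < m z) (sum : ∑ z, m z = 1)
    (cl1 : ClosedK m (1 / 2) (l1 / 2)) (cl2 : ClosedK m (9 / 20) (9 / 20 * l1 - 8))
    {H : Finset X}
    (inc : ∀ z, z ⊆ H → z.Nonempty → m z ≤ exp (-((l1 + 8060) * (z.card : ℝ))))
    (h1 : 1 ≤ fs m 1 l1 H) : False := by
  classical
  have main : ∀ i : ℕ, ∀ H : Finset X,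
      (∀ z, z ⊆ H → z.Nonempty → m z ≤ exp (-((l1 + 8060) * (z.card : ℝ)))) →
      1 ≤ fs m 1 l1 H → 1 ≤ fs m ((3 / 2) ^ i) (l1 + ∑ j ∈ Finset.range i, dl j) H := by
    intro i
    induction i with
    | zero =>
      intro H _ h
      simpa using h
    | succ i ih =>
      intro H hinc h
      have hinc' : ∀ (l : ℝ), l ≤ l1 + 60 → ∀ H', H' ⊆ H → ∀ z, z ⊆ H' → z.Nonempty →
          m z * exp (l * (z.card : ℝ)) ≤ exp (-(10 * (z.card : ℝ))) := by
        intro l hl H' hH' z hz hzne
        have hc : (1 : ℝ) ≤ z.card := by exact_mod_cast Finset.card_pos.2 hzne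
        calc m z * exp (l * (z.card : ℝ))
            ≤ exp (-((l1 + 8060) * (z.card : ℝ))) * exp (l * (z.card : ℝ)) :=
              mul_le_mul_of_nonneg_right (hinc z (hz.trans hH') hzne) (exp_pos _).le
          _ = exp ((l - l1 - 8060) * (z.card : ℝ)) := by rw [← exp_add]; congr 1; ring
          _ ≤ exp (-(10 * (z.card : ℝ))) := by
              rw [exp_le_exp]
              nlinarith
      obtain ⟨H1, hH1, e1, e2⟩ := exists_min h
      have a1 : fs m 1 l1 H1 ≤ 9 / 4 :=
        minimal_le pos le_rfl (hinc' l1 (by linarith) H1 hH1) e1 e2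
      have e3 := ih H1 (fun z hz => hinc z (hz.trans hH1)) e1
      obtain ⟨H2, hH2, e4, e5⟩ := exists_min e3
      set li : ℝ := l1 + ∑ j ∈ Finset.range i, dl j with hli
      have hl60 : li ≤ l1 + 60 := by rw [hli]; linarith [sum_dl_le i]
      have hl0 : l1 ≤ li := by
        rw [hli]
        have : 0 ≤ ∑ j ∈ Finset.range i, dl j := Finset.sum_nonneg fun j _ => dl_nonneg j
        linarith
      have hs1 : (1 : ℝ) ≤ (3 / 2) ^ i := one_le_pow₀ (by norm_num)
      have a2 : fs m ((3 / 2) ^ i) li H2 ≤ 9 / 4 :=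
        minimal_le pos hs1 (hinc' li hl60 H2 (hH2.trans hH1)) e4 e5
      have hg : Good m l1 li ((3 / 2) ^ i) H2 :=
        { pos := pos, sum := sum, cl1 := cl1, cl2 := cl2
          inc := fun z hz => hinc z ((hz.trans hH2).trans hH1)
          all := (fs_mono pos hH2).trans a1
          hs := hs1, hl := hl0, hl' := hl60, up := a2, lo := e4 }
      rw [Finset.sum_range_succ, ← add_assoc, ← hli, pow_succ, mul_comm ((3 / 2 : ℝ) ^ i)]
      refine le_trans ?_ (fs_mono pos (hH2.trans hH1))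
      unfold dl
      by_cases hi : i < 20
      · rw [if_pos hi]
        exact Good.step_crude hg
      · rw [if_neg hi]
        apply Good.step_refined hg
        have h20 : (3 / 2 : ℝ) ^ 20 ≤ (3 / 2) ^ i :=
          pow_le_pow_right₀ (by norm_num) (by omega)
        have : (3000 : ℝ) ≤ (3 / 2) ^ 20 := by norm_num
        linarith
  obtain ⟨i, hi⟩ := pow_unbounded_of_one_lt (Fintype.card X : ℝ) (by norm_num : (1 : ℝ) < 3 / 2)
  have h2 := main i H inc h1
  have h3 : fs m ((3 / 2) ^ i) (l1 + ∑ j ∈ Finset.range i, dl j) H = 0 := by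
    unfold fs
    have : H.powerset.filter (fun z => ((3 / 2 : ℝ) ^ i) ≤ (z.card : ℝ)) = ∅ := by
      rw [Finset.filter_eq_empty_iff]
      intro z _
      rw [not_le]
      refine lt_of_le_of_lt ?_ hi
      exact_mod_cast Finset.card_le_univ z
    rw [this, Finset.sum_empty]
  rw [h3] at h2
  norm_num at h2

end Vale.Agent.Tal
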