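import Vale.Agent.Tal.PartC
import Vale.Agent.Tal.PartJ

/-!
# P034: Talagrand's conjecture, pointwise form (Part K)
-/

namespace Vale.Agent.Tal

open Finset Real Vale.Agent.P064

/-- Pointwise form: if `F` has a fractional cover of cost at most `1/2` at `p`, then `F` has
an integral cover of cost at most `1/2` at `p / (24 e^8060)`. -/
theorem small_of_frac {X : Type} [Fintype X] [DecidableEq X] (F : Set (Finset X)) {p : ℝ}
    (hp0 : 0 < p) (hp1 : p ≤ 1) (g : Finset X → ℝ) (hg0 : ∀ S, 0 ≤ g S)
    (hg : ∀ H ∈ F, 1 ≤ ∑ S ∈ H.powerset, g S) (hc : ∑ S : Finset X, g S * p ^ S.card ≤ 1 / 2) :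
    ∃ 𝒢 : Finset (Finset X), (∀ H ∈ F, ∃ S ∈ 𝒢, S ⊆ H) ∧
      ∑ S ∈ 𝒢, (p / (24 * exp 8060)) ^ S.card ≤ 1 / 2 := by
  classical
  have hK : (0 : ℝ) < 24 * exp 8060 := by positivity
  -- the starting measure
  set m0 : Finset X → ℝ := fun S => if S = ∅ then 0 else 2 * g S * p ^ S.card with hm0
  have hm00 : ∀ S, 0 ≤ m0 S := by
    intro S
    simp only [hm0]
    split_ifs
    · exact le_rfl
    · exact mul_nonneg (mul_nonneg (by norm_num) (hg0 S)) (pow_nonneg hp0.le _)
  have hm01 : ∑ S, m0 S ≤ 1 := by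
    have h1 : ∀ S : Finset X, m0 S ≤ 2 * (g S * p ^ S.card) := by
      intro S
      simp only [hm0]
      split_ifs
      · exact mul_nonneg (by norm_num) (mul_nonneg (hg0 S) (pow_nonneg hp0.le _))
      · exact le_of_eq (by ring)
    calc ∑ S, m0 S ≤ ∑ S : Finset X, 2 * (g S * p ^ S.card) := Finset.sum_le_sum (fun S _ => h1 S)
      _ = 2 * ∑ S : Finset X, g S * p ^ S.card := by rw [Finset.mul_sum]
      _ ≤ 1 := by linarith
  set l1 : ℝ := log (12 / p) with hl1
  obtain ⟨m, hm, hm1, hmm0, hcl1, hcl2⟩ := exists_closed m0 hm00 hm01 (1 / 2) (l1 / 2)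
    (9 / 20) (9 / 20 * l1 - 8)
  have hel1 : exp l1 = 12 / p := by rw [hl1, Real.exp_log (by positivity)]
  have hexpc : ∀ (a : ℝ) (k : ℕ), exp (a * (k : ℝ)) = exp a ^ k := by
    intro a k
    rw [mul_comm, Real.exp_nat_mul]
  refine ⟨univ.filter (fun S => S.Nonempty ∧ exp (-((l1 + 8060) * (S.card : ℝ))) < m S), ?_, ?_⟩
  · -- covering
    intro H hH
    by_contra hcon
    push Not at hcon
    have inc : ∀ z, z ⊆ H → z.Nonempty → m z ≤ exp (-((l1 + 8060) * (z.card : ℝ))) := by
      intro z hz hzn
      by_contra hlt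
      push Not at hlt
      exact hcon z (by simp [hzn, hlt]) hz
    have hge : 1 ≤ fs m 1 l1 H := by
      have hcov := hg H hH
      have hemp : g ∅ ≤ 1 / 2 := by
        refine le_trans ?_ hc
        have := Finset.single_le_sum (s := univ) (f := fun S : Finset X => g S * p ^ S.card)
          (fun S _ => mul_nonneg (hg0 S) (pow_nonneg hp0.le _)) (Finset.mem_univ ∅)
        simpa using this
      have h1 : ∑ S ∈ H.powerset.erase ∅, g S = ∑ S ∈ H.powerset, g S - g ∅ := by
        rw [← Finset.sum_erase_add _ _ (Finset.empty_mem_powerset H)]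
        ring
      have hset : H.powerset.filter (fun z => (1:ℝ) ≤ (z.card : ℝ)) = H.powerset.erase ∅ := by
        ext z
        simp only [Finset.mem_filter, Finset.mem_powerset, Finset.mem_erase]
        constructor
        · rintro ⟨h1, h2⟩
          refine ⟨?_, h1⟩
          rintro rfl
          norm_num at h2
        · rintro ⟨h1, h2⟩
          refine ⟨h2, ?_⟩
          have : 0 < z.card := Finset.card_pos.mpr (Finset.nonempty_iff_ne_empty.mpr h1)
          exact_mod_cast this
      have h2 : ∑ S ∈ H.powerset.erase ∅, 2 * g S ≤ fs m 1 l1 H := by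
        unfold fs
        rw [show (H.powerset.filter (fun z => (1:ℝ) ≤ (z.card : ℝ))) = H.powerset.erase ∅ by
          convert hset using 2]
        refine Finset.sum_le_sum (fun S hS => ?_)
        have hSne : S ≠ ∅ := (Finset.mem_erase.mp hS).1
        have hcard : 0 < S.card := Finset.card_pos.mpr (Finset.nonempty_iff_ne_empty.mpr hSne)
        have h3 := hmm0 S
        simp only [hm0, hSne, if_false] at h3
        rw [hexpc, hel1, div_pow]
        have hpp : 0 < p ^ S.card := pow_pos hp0 _
        have h4 : (12:ℝ) ≤ 12 ^ S.card := by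
          have := pow_le_pow_right₀ (show (1:ℝ) ≤ 12 by norm_num) hcard
          simpa using this
        rw [← mul_div_assoc, le_div_iff₀ hpp]
        have h5 : m S * 12 ≤ m S * 12 ^ S.card := mul_le_mul_of_nonneg_left h4 (hm S).le
        linarith
      rw [← Finset.mul_sum, h1] at h2
      linarith
    exact single_set hm hm1 hcl1 hcl2 inc hge
  · -- cost
    have hq0 : 0 < p / (24 * exp 8060) := by positivity
    have h1 : ∀ S ∈ univ.filter (fun S : Finset X => S.Nonempty ∧
        exp (-((l1 + 8060) * (S.card : ℝ))) < m S),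
        (p / (24 * exp 8060)) ^ S.card ≤ m S * (1 / 2) := by
      intro S hS
      simp only [Finset.mem_filter, Finset.mem_univ, true_and] at hS
      have hcard : 0 < S.card := Finset.card_pos.mpr hS.1
      have h2 : (1:ℝ) ≤ m S * exp ((l1 + 8060) * (S.card : ℝ)) := by
        have := mul_le_mul_of_nonneg_right hS.2.le (exp_pos ((l1 + 8060) * (S.card : ℝ))).le
        rwa [← Real.exp_add, neg_add_cancel, Real.exp_zero] at this
      have h3 : exp (l1 + 8060) * (p / (24 * exp 8060)) = 1 / 2 := by
        rw [Real.exp_add, hel1]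
        field_simp
        norm_num
      have h4 : exp ((l1 + 8060) * (S.card : ℝ)) * (p / (24 * exp 8060)) ^ S.card
          = (1 / 2) ^ S.card := by
        rw [hexpc, ← mul_pow, h3]
      have h5 : ((1:ℝ) / 2) ^ S.card ≤ 1 / 2 := by
        have := pow_le_pow_of_le_one (show (0:ℝ) ≤ 1 / 2 by norm_num) (by norm_num) hcard
        simpa using this
      calc (p / (24 * exp 8060)) ^ S.card = 1 * (p / (24 * exp 8060)) ^ S.card := by ring
        _ ≤ m S * exp ((l1 + 8060) * (S.card : ℝ)) * (p / (24 * exp 8060)) ^ S.card :=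
            mul_le_mul_of_nonneg_right h2 (pow_nonneg hq0.le _)
        _ = m S * (1 / 2) ^ S.card := by rw [mul_assoc, h4]
        _ ≤ m S * (1 / 2) := mul_le_mul_of_nonneg_left h5 (hm S).le
    refine (Finset.sum_le_sum h1).trans ?_
    rw [← Finset.sum_mul]
    have h2 : ∑ S ∈ univ.filter (fun S : Finset X => S.Nonempty ∧
        exp (-((l1 + 8060) * (S.card : ℝ))) < m S), m S ≤ ∑ S, m S :=
      Finset.sum_le_sum_of_subset_of_nonneg (Finset.subset_univ _) (fun S _ _ => (hm S).le)
    rw [hm1] at h2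
    linarith

end Vale.Agent.Tal
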